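import Vale.Agent.Lib.P310U.CA

set_option linter.unusedSectionVars false

namespace Vale.Agent.Lib.P310U

open Finset Vale.Agent.Lib.P310

section

variable {Sg : Type} [Fintype Sg] [DecidableEq Sg] {n Lt Lq : ℕ}
variable {Δ : Sg → Sg → Sg → Sg} {xin : Fin n → Sg} {bl : Sg} {acc : Sg → Prop}
variable {C : ℕ → (Fin (Lq + 1) → Fin n) → Sg}

/-- The string with all letters `kap`. -/
def kapS : Fin (Lt + Lq + 1 + 1) → LamC Sg n := fun _ => Sum.inr Hd.kap

/-- The string with all letters `trap`. -/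
def trapS : Fin (Lt + Lq + 1 + 1) → LamC Sg n := fun _ => Sum.inr Hd.trap

variable (Δ xin bl acc)

/-- Shorthand for derivability in the string system of the tableau. -/
abbrev DC : Fin 3 → (Fin (Lt + Lq + 1 + 1) → LamC Sg n) → Prop :=
  Deriv (LocC (Lt := Lt) (Lq := Lq) Δ xin bl acc) isOKC

variable {Δ xin bl acc}

lemma isOK_kap (τ : Fin 3) (hτ : τ ≠ 0) : isOKC τ (Sum.inr Hd.kap : LamC Sg n) := by
  unfold isOKC
  rw [if_neg hτ]

lemma isOK_trap : isOKC 0 (Sum.inr Hd.trap : LamC Sg n) := by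
  unfold isOKC
  rw [if_pos rfl]

lemma dc_kap1 : DC (Lt := Lt) (Lq := Lq) Δ xin bl acc 1 (kapS (Sg := Sg) (n := n)) :=
  Deriv.seed 1 _ (by decide) (isOK_kap 1 (by decide))

lemma dc_kap2 : DC (Lt := Lt) (Lq := Lq) Δ xin bl acc 2 (kapS (Sg := Sg) (n := n)) :=
  Deriv.seed 2 _ (by decide) (isOK_kap 2 (by decide))

/-- The rule for a triple given by its three strings. -/
lemma rule_triple (t : Tag Sg Lt Lq) (v0 v1 v2 : Fin (Lt + Lq + 1 + 1) → LamC Sg n)
    (h : ∀ l : Fin (Lt + Lq + 1 + 1), BodyC Δ xin bl acc t l.val (v0 l) (v1 l) (v2 l))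
    (τ : Fin 3) (hprev : ∀ τ', τ' ≠ τ → DC (Lt := Lt) (Lq := Lq) Δ xin bl acc τ' (![v0, v1, v2] τ')) :
    DC (Lt := Lt) (Lq := Lq) Δ xin bl acc τ (![v0, v1, v2] τ) :=
  Deriv.rule ![v0, v1, v2] (fun _ => t) τ (run_of_hasRun h) hprev

lemma ne_cases0 (τ' : Fin 3) (h : τ' ≠ 0) : τ' = 1 ∨ τ' = 2 := by
  revert τ'
  decide

lemma ne_cases1 (τ' : Fin 3) (h : τ' ≠ 1) : τ' = 0 ∨ τ' = 2 := by
  revert τ'
  decide

lemma ne_cases2 (τ' : Fin 3) (h : τ' ≠ 2) : τ' = 0 ∨ τ' = 1 := by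
  revert τ'
  decide

lemma rule0 {t : Tag Sg Lt Lq} {v0 v1 v2 : Fin (Lt + Lq + 1 + 1) → LamC Sg n}
    (h : ∀ l : Fin (Lt + Lq + 1 + 1), BodyC Δ xin bl acc t l.val (v0 l) (v1 l) (v2 l))
    (h1 : DC (Lt := Lt) (Lq := Lq) Δ xin bl acc 1 v1)
    (h2 : DC (Lt := Lt) (Lq := Lq) Δ xin bl acc 2 v2) :
    DC (Lt := Lt) (Lq := Lq) Δ xin bl acc 0 v0 :=
  rule_triple t v0 v1 v2 h 0 fun τ' hτ => by
    rcases ne_cases0 τ' hτ with rfl | rfl
    · exact h1
    · exact h2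

lemma rule1 {t : Tag Sg Lt Lq} {v0 v1 v2 : Fin (Lt + Lq + 1 + 1) → LamC Sg n}
    (h : ∀ l : Fin (Lt + Lq + 1 + 1), BodyC Δ xin bl acc t l.val (v0 l) (v1 l) (v2 l))
    (h0 : DC (Lt := Lt) (Lq := Lq) Δ xin bl acc 0 v0)
    (h2 : DC (Lt := Lt) (Lq := Lq) Δ xin bl acc 2 v2) :
    DC (Lt := Lt) (Lq := Lq) Δ xin bl acc 1 v1 :=
  rule_triple t v0 v1 v2 h 1 fun τ' hτ => by
    rcases ne_cases1 τ' hτ with rfl | rfl
    · exact h0
    · exact h2

lemma rule2 {t : Tag Sg Lt Lq} {v0 v1 v2 : Fin (Lt + Lq + 1 + 1) → LamC Sg n}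
    (h : ∀ l : Fin (Lt + Lq + 1 + 1), BodyC Δ xin bl acc t l.val (v0 l) (v1 l) (v2 l))
    (h0 : DC (Lt := Lt) (Lq := Lq) Δ xin bl acc 0 v0)
    (h1 : DC (Lt := Lt) (Lq := Lq) Δ xin bl acc 1 v1) :
    DC (Lt := Lt) (Lq := Lq) Δ xin bl acc 2 v2 :=
  rule_triple t v0 v1 v2 h 2 fun τ' hτ => by
    rcases ne_cases2 τ' hτ with rfl | rfl
    · exact h0
    · exact h1

lemma dc_kap0 : DC (Lt := Lt) (Lq := Lq) Δ xin bl acc 0 (kapS (Sg := Sg) (n := n)) :=
  rule0 (t := Tag.kkk) (fun _ _ => ⟨rfl, rfl, rfl⟩) dc_kap1 dc_kap2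

/-- A string derived on track 2 with head other than `trap` is derived on all tracks. -/
lemma all_tracks {v : Fin (Lt + Lq + 1 + 1) → LamC Sg n} (h2 : DC Δ xin bl acc 2 v)
    (hv : v 0 ≠ Sum.inr Hd.trap) (τ : Fin 3) : DC Δ xin bl acc τ v := by
  have h0 : DC Δ xin bl acc 0 v :=
    rule0 (t := Tag.e1) (v1 := kapS) (fun l => ⟨rfl, fun hl => ⟨rfl, by
      have : l = 0 := Fin.ext hl
      rw [this]
      exact hv⟩⟩) dc_kap1 h2
  have h1 : DC Δ xin bl acc 1 v :=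
    rule1 (t := Tag.e2) (v2 := kapS) (fun l => ⟨rfl, fun hl => ⟨rfl, by
      have : l = 0 := Fin.ext hl
      rw [this]
      exact hv⟩⟩) h0 dc_kap2
  fin_cases τ
  · exact h0
  · exact h1
  · exact h2

/-- The strings of `cell`, `pair` and `trip` heads are not `trap`. -/
lemma strOf_ne_trap {h : Hd Sg} (hh : h ≠ Hd.trap) (x : Fin Lt → Fin n)
    (p : Fin (Lq + 1) → Fin n) : strOf h x p 0 ≠ Sum.inr Hd.trap := by
  rw [strOf_zero _ _ _ rfl]
  intro e
  exact hh (Sum.inr.inj e)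

/-- Position cases of a string position that is not the head. -/
lemma body_A {j₀ : Fin (Lq + 2)} {x : Fin Lt → Fin n} {p : Fin (Lq + 1) → Fin n}
    (hj : ∀ j : Fin (Lq + 1), incAt j₀.val j.val (p j) (inc p j)) (h h' h'' : Hd Sg)
    {l : Fin (Lt + Lq + 1 + 1)} (hl : l.val ≠ 0) :
    DigA (Lt := Lt) j₀ l.val (strOf h x p l) (strOf h' x (inc p) l) (strOf h'' x p l) := by
  unfold DigA
  split_ifs with h1
  · rw [strOf_t _ _ _ hl h1, strOf_t _ _ _ hl h1, strOf_t _ _ _ hl h1]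
    exact ⟨_, rfl, rfl, rfl⟩
  · rw [strOf_p _ _ _ h1, strOf_p _ _ _ h1, strOf_p _ _ _ h1]
    exact ⟨_, _, rfl, rfl, rfl, hj ⟨l.val - 1 - Lt, by have := l.isLt; omega⟩⟩

/-- The rule of pairs. -/
lemma rule_and1 {x : Fin Lt → Fin n} {p : Fin (Lq + 1) → Fin n} {b c : Sg}
    (h0 : DC Δ xin bl acc 0 (strOf (Hd.cell b) x p))
    (h1 : DC Δ xin bl acc 1 (strOf (Hd.cell c) x (inc p))) :
    DC Δ xin bl acc 2 (strOf (Hd.pair b c) x p) := by
  obtain ⟨j0, hj1, hj2, -⟩ := exists_incAt p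
  refine rule2 (t := Tag.and1 ⟨j0, by omega⟩) (fun l => ?_) h0 h1
  simp only [BodyC]
  split_ifs with hl
  · refine ⟨b, c, ?_, ?_, ?_⟩ <;> exact strOf_zero _ _ _ hl
  · exact body_A hj2 _ _ _ hl

/-- The rule of triples of cells. -/
lemma rule_and2 {x : Fin Lt → Fin n} {p : Fin (Lq + 1) → Fin n} {a b c : Sg}
    (h0 : DC Δ xin bl acc 0 (strOf (Hd.cell a) x p))
    (h1 : DC Δ xin bl acc 1 (strOf (Hd.pair b c) x (inc p))) :
    DC Δ xin bl acc 2 (strOf (Hd.trip a b c) x p) := by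
  obtain ⟨j0, hj1, hj2, -⟩ := exists_incAt p
  refine rule2 (t := Tag.and2 ⟨j0, by omega⟩) (fun l => ?_) h0 h1
  simp only [BodyC]
  split_ifs with hl
  · refine ⟨a, b, c, ?_, ?_, ?_⟩ <;> exact strOf_zero _ _ _ hl
  · exact body_A hj2 _ _ _ hl

/-- The rule of the next time step. -/
lemma rule_one {x : Fin Lt → Fin n} {p : Fin (Lq + 1) → Fin n} {a b c : Sg}
    (hx : valD x + 1 < n ^ Lt)
    (h0 : DC Δ xin bl acc 0 (strOf (Hd.trip a b c) x p))
    (h1 : DC Δ xin bl acc 1 (strOf (Hd.trip a b c) x p)) :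
    DC Δ xin bl acc 2 (strOf (Hd.cell (Δ a b c)) (inc x) (inc p)) := by
  obtain ⟨j0, hj1, hj2, -⟩ := exists_incAt p
  obtain ⟨i0, hi1, hi2, hi3⟩ := exists_incAt x
  have hi4 := hi3 hx
  refine rule2 (t := Tag.one ⟨i0, hi4⟩ ⟨j0, by omega⟩) (fun l => ?_) h0 h1
  simp only [BodyC]
  split_ifs with hl hl2
  · refine ⟨a, b, c, ?_, ?_, ?_⟩ <;> exact strOf_zero _ _ _ hl
  · rw [strOf_t _ _ _ hl hl2, strOf_t _ _ _ hl hl2]
    exact ⟨_, _, rfl, rfl, rfl, hi2 ⟨l.val - 1, by omega⟩⟩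
  · rw [strOf_p _ _ _ hl2, strOf_p _ _ _ hl2]
    exact ⟨_, _, rfl, rfl, rfl, hj2 ⟨l.val - 1 - Lt, by have := l.isLt; omega⟩⟩

/-- The initial row. -/
lemma rule_init {x : Fin Lt → Fin n} (hx : valD x = 0) (p : Fin (Lq + 1) → Fin n) :
    DC Δ xin bl acc 2 (strOf (Hd.cell (initC xin bl p)) x p) := by
  classical
  have hz := valD_zero_digit hx
  by_cases hp : ∀ j : Fin (Lq + 1), j ≠ 0 → (p j).val = 0
  · have e : initC xin bl p = xin (p 0) := by
      unfold initC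
      rw [if_pos hp]
    rw [e]
    refine rule2 (t := Tag.iin (xin (p 0))) (v0 := kapS) (v1 := kapS) (fun l => ?_) dc_kap0 dc_kap1
    simp only [BodyC]
    split_ifs with hl hl2
    · exact ⟨rfl, rfl, strOf_zero _ _ _ hl⟩
    · rw [strOf_p _ _ _ (by omega)]
      refine ⟨_, rfl, ?_⟩
      congr 2
      apply Fin.ext
      simp only [Fin.val_zero]
      omega
    · by_cases hl3 : l.val ≤ Lt
      · rw [strOf_t _ _ _ hl hl3]
        exact ⟨_, rfl, hz _⟩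
      · rw [strOf_p _ _ _ hl3]
        refine ⟨_, rfl, hp _ ?_⟩
        intro h
        have := congrArg Fin.val h
        simp only [Fin.val_zero] at this
        omega
  · push Not at hp
    obtain ⟨j₀, h1, h2⟩ := hp
    have e : initC xin bl p = bl := by
      unfold initC
      rw [if_neg]
      intro h
      exact h2 (h j₀ h1)
    rw [e]
    refine rule2 (t := Tag.iout j₀) (v0 := kapS) (v1 := kapS) (fun l => ?_) dc_kap0 dc_kap1
    simp only [BodyC]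
    split_ifs with hl
    · refine ⟨rfl, rfl, strOf_zero _ _ _ hl, ?_⟩
      intro h
      exact h1 (Fin.ext h)
    · by_cases hl3 : l.val ≤ Lt
      · rw [strOf_t _ _ _ hl hl3]
        exact ⟨_, rfl, fun _ => hz _, fun h => by omega⟩
      · rw [strOf_p _ _ _ hl3]
        refine ⟨_, rfl, fun h => absurd h hl3, fun h => ?_⟩
        have e2 : (⟨l.val - 1 - Lt, by have := l.isLt; omega⟩ : Fin (Lq + 1)) = j₀ := by
          apply Fin.ext
          simp only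
          omega
        rw [e2]
        exact h2

/-- All cells of the tableau are derived on all tracks. -/
theorem dc_cells (hinit : ∀ p, C 0 p = initC xin bl p)
    (hrule : ∀ t, t + 1 < n ^ Lt → ∀ p, C (t + 1) (inc p) = Δ (C t p) (C t (inc p)) (C t (inc (inc p)))) :
    ∀ (t : ℕ) (x : Fin Lt → Fin n), valD x = t → ∀ (p : Fin (Lq + 1) → Fin n) (τ : Fin 3),
      DC Δ xin bl acc τ (strOf (Hd.cell (C t p)) x p) := by
  intro t
  induction t with
  | zero =>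
    intro x hx p τ
    rw [hinit]
    exact all_tracks (rule_init hx p) (strOf_ne_trap (by simp) x p) τ
  | succ t ih =>
    intro x' hx' p' τ
    have ht : t < n ^ Lt := by
      have := valD_lt x'
      omega
    obtain ⟨x, hx⟩ := exists_valD (n := n) (k := Lt) ht
    obtain ⟨p, rfl⟩ := inc_surjective p'
    have hxx : x' = inc x := by
      apply valD_inj
      rw [hx', valD_inc_of_lt (by have := valD_lt x'; omega), hx]
    subst hxx
    have hp1 := rule_and1 (ih x hx (inc p) 0) (ih x hx (inc (inc p)) 1)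
    have hp2 := all_tracks hp1 (strOf_ne_trap (by simp) x (inc p)) 1
    have ht1 := rule_and2 (ih x hx p 0) hp2
    have ht2 := all_tracks ht1 (strOf_ne_trap (by simp) x p)
    have hc := rule_one (by have := valD_lt (inc x); rw [valD_inc_of_lt (by
      have := valD_lt (inc x); rw [hx] at *; omega)] at this; omega) (ht2 0) (ht2 1)
    rw [hrule _ (by rw [← hx']; exact valD_lt _)]
    exact all_tracks hc (strOf_ne_trap (by simp) _ _) τ

/-- An accepting cell derives the trap. -/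
theorem dc_trap (hinit : ∀ p, C 0 p = initC xin bl p)
    (hrule : ∀ t, t + 1 < n ^ Lt → ∀ p, C (t + 1) (inc p) = Δ (C t p) (C t (inc p)) (C t (inc (inc p))))
    {x : Fin Lt → Fin n} {p : Fin (Lq + 1) → Fin n} (hacc : acc (C (valD x) p)) :
    ∃ y : Fin (Lt + Lq + 1 + 1) → LamC Sg n,
      HasRun Δ xin bl acc ![trapS, y, y] (Tag.fin : Tag Sg Lt Lq) ∧
      DC Δ xin bl acc 0 (trapS (Lt := Lt) (Lq := Lq) (Sg := Sg) (n := n)) := by
  have hd := fun τ => dc_cells (Δ := Δ) (xin := xin) (bl := bl) (acc := acc) hinit hrule _ x rfl p τ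
  have hb : ∀ l : Fin (Lt + Lq + 1 + 1), BodyC Δ xin bl acc (Tag.fin : Tag Sg Lt Lq) l.val
      ((trapS (Lt := Lt) (Lq := Lq) (Sg := Sg) (n := n)) l) (strOf (Hd.cell (C (valD x) p)) x p l)
      (strOf (Hd.cell (C (valD x) p)) x p l) := by
    intro l
    refine ⟨rfl, fun hl => ⟨rfl, C (valD x) p, strOf_zero _ _ _ hl, hacc⟩⟩
  exact ⟨_, hb, rule0 hb (hd 1) (hd 2)⟩

end

end Vale.Agent.Lib.P310U
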