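import Vale.Agent.Lib.P310U.CAInd

/-!
Head letters and tags as sum types.
-/

namespace Vale.Agent.Lib.P310U

/-- Head letters as a sum type. -/
def Hd.equiv (Sg : Type) : Hd Sg ≃ Unit ⊕ Unit ⊕ Sg ⊕ (Sg × Sg) ⊕ (Sg × Sg × Sg) where
  toFun
    | Hd.kap => Sum.inl ()
    | Hd.trap => Sum.inr (Sum.inl ())
    | Hd.cell a => Sum.inr (Sum.inr (Sum.inl a))
    | Hd.pair a b => Sum.inr (Sum.inr (Sum.inr (Sum.inl (a, b))))
    | Hd.trip a b c => Sum.inr (Sum.inr (Sum.inr (Sum.inr (a, b, c))))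
  invFun
    | Sum.inl () => Hd.kap
    | Sum.inr (Sum.inl ()) => Hd.trap
    | Sum.inr (Sum.inr (Sum.inl a)) => Hd.cell a
    | Sum.inr (Sum.inr (Sum.inr (Sum.inl (a, b)))) => Hd.pair a b
    | Sum.inr (Sum.inr (Sum.inr (Sum.inr (a, b, c)))) => Hd.trip a b c
  left_inv x := by cases x <;> rfl
  right_inv x := by
    rcases x with _ | _ | _ | ⟨_, _⟩ | ⟨_, _, _⟩ <;> rfl

/-- Tags as a sum type. -/
def Tag.equiv (Sg : Type) (Lt Lq : ℕ) : Tag Sg Lt Lq ≃ Fin 5 ⊕ Fin (Lq + 2) ⊕ Fin (Lq + 2) ⊕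
    (Fin Lt × Fin (Lq + 2)) ⊕ Sg ⊕ Fin (Lq + 1) where
  toFun
    | Tag.kkk => Sum.inl 0
    | Tag.e0 => Sum.inl 1
    | Tag.e1 => Sum.inl 2
    | Tag.e2 => Sum.inl 3
    | Tag.fin => Sum.inl 4
    | Tag.and1 j => Sum.inr (Sum.inl j)
    | Tag.and2 j => Sum.inr (Sum.inr (Sum.inl j))
    | Tag.one i j => Sum.inr (Sum.inr (Sum.inr (Sum.inl (i, j))))
    | Tag.iin a => Sum.inr (Sum.inr (Sum.inr (Sum.inr (Sum.inl a))))
    | Tag.iout j => Sum.inr (Sum.inr (Sum.inr (Sum.inr (Sum.inr j))))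
  invFun
    | Sum.inl i => ![Tag.kkk, Tag.e0, Tag.e1, Tag.e2, Tag.fin] i
    | Sum.inr (Sum.inl j) => Tag.and1 j
    | Sum.inr (Sum.inr (Sum.inl j)) => Tag.and2 j
    | Sum.inr (Sum.inr (Sum.inr (Sum.inl (i, j)))) => Tag.one i j
    | Sum.inr (Sum.inr (Sum.inr (Sum.inr (Sum.inl a)))) => Tag.iin a
    | Sum.inr (Sum.inr (Sum.inr (Sum.inr (Sum.inr j)))) => Tag.iout j
  left_inv x := by cases x <;> rfl
  right_inv x := by
    rcases x with i | _ | _ | ⟨_, _⟩ | _ | _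
    · fin_cases i <;> rfl
    all_goals rfl

end Vale.Agent.Lib.P310U
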