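import Mathlib
import Vale.Agent.Lib.P310U.CADefs

set_option linter.unusedSectionVars false

namespace Vale.Agent.Lib.P310U

open Finset

/-- One digit step of an increment with carry. -/
def incD {n : ℕ} (x y : Fin n) (c c' : Bool) : Prop := x.val + c.toNat = y.val + n * c'.toNat

section

variable {n k : ℕ}

/-- The value of a digit string, least significant digit first. -/
def valD (x : Fin k → Fin n) : ℕ := ∑ i, (x i).val * n ^ i.val

lemma valD_eq (x : Fin k → Fin n) : valD x = (finFunctionFinEquiv x).val :=
  (finFunctionFinEquiv_apply x).symm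

lemma valD_lt (x : Fin k → Fin n) : valD x < n ^ k := by
  rw [valD_eq]
  exact (finFunctionFinEquiv x).isLt

lemma valD_inj {x y : Fin k → Fin n} (h : valD x = valD y) : x = y := by
  rw [valD_eq, valD_eq] at h
  exact finFunctionFinEquiv.injective (Fin.ext h)

lemma exists_valD {t : ℕ} (ht : t < n ^ k) : ∃ x : Fin k → Fin n, valD x = t := by
  refine ⟨finFunctionFinEquiv.symm ⟨t, ht⟩, ?_⟩
  rw [valD_eq]
  simp

/-- Carries turn digit steps into an equation of values. -/
lemma carry_val : ∀ {k : ℕ} (x y : Fin k → Fin n) (c : Fin (k + 1) → Bool),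
    (∀ i : Fin k, incD (x i) (y i) (c i.castSucc) (c i.succ)) →
    valD x + (c 0).toNat = valD y + n ^ k * (c (Fin.last k)).toNat := by
  intro k
  induction k with
  | zero =>
    intro x y c _
    simp [valD]
  | succ k ih =>
    intro x y c h
    have h1 := ih (fun i => x i.castSucc) (fun i => y i.castSucc) (fun i => c i.castSucc)
      (fun i => by
        have := h i.castSucc
        rw [Fin.succ_castSucc] at this
        exact this)
    have h2 := h (Fin.last k)
    unfold incD at h2
    have e1 : valD x = valD (fun i : Fin k => x i.castSucc) + (x (Fin.last k)).val * n ^ k := by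
      unfold valD
      rw [Fin.sum_univ_castSucc]
      simp
    have e2 : valD y = valD (fun i : Fin k => y i.castSucc) + (y (Fin.last k)).val * n ^ k := by
      unfold valD
      rw [Fin.sum_univ_castSucc]
      simp
    rw [Fin.succ_last] at h2
    simp only [Fin.castSucc_zero] at h1
    rw [e1, e2]
    have h3 : (x (Fin.last k)).val * n ^ k + (c (Fin.last k).castSucc).toNat * n ^ k =
        (y (Fin.last k)).val * n ^ k + n * (c (Fin.last (k + 1))).toNat * n ^ k := by
      rw [← add_mul, h2, add_mul]
    have e4 : n ^ (k + 1) * (c (Fin.last (k + 1))).toNat =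
        n * (c (Fin.last (k + 1))).toNat * n ^ k := by ring
    rw [e4]
    have e5 : n ^ k * (c (Fin.last k).castSucc).toNat =
        (c (Fin.last k).castSucc).toNat * n ^ k := by ring
    rw [e5] at h1
    omega

/-- All digits below `j` are maximal. -/
def carry (x : Fin k → Fin n) (j : ℕ) : Bool :=
  decide (∀ i : Fin k, i.val < j → (x i).val + 1 = n)

/-- The increment of a digit string. -/
def inc (x : Fin k → Fin n) : Fin k → Fin n :=
  fun i => ⟨((x i).val + (carry x i.val).toNat) % n, Nat.mod_lt _ (x i).pos⟩

lemma carry_zero (x : Fin k → Fin n) : carry x 0 = true := by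
  unfold carry
  simp

lemma carry_succ (x : Fin k → Fin n) (i : Fin k) :
    carry x (i.val + 1) = (carry x i.val && decide ((x i).val + 1 = n)) := by
  unfold carry
  rw [Bool.eq_iff_iff]
  simp only [decide_eq_true_eq, Bool.and_eq_true]
  constructor
  · intro h
    exact ⟨fun i' hi' => h i' (by omega), h i (by omega)⟩
  · rintro ⟨h1, h2⟩ i' hi'
    by_cases e : i'.val = i.val
    · have : i' = i := Fin.ext e
      rw [this]
      exact h2
    · exact h1 i' (by omega)

lemma inc_incD (x : Fin k → Fin n) (i : Fin k) :
    incD (x i) (inc x i) (carry x i.val) (carry x (i.val + 1)) := by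
  unfold incD
  change (x i).val + (carry x i.val).toNat =
    ((x i).val + (carry x i.val).toNat) % n + n * (carry x (i.val + 1)).toNat
  rw [carry_succ]
  have hn := (x i).isLt
  cases hc : carry x i.val with
  | false =>
    simp [Nat.mod_eq_of_lt hn]
  | true =>
    by_cases h : (x i).val + 1 = n
    · simp only [h, Bool.toNat_true, Bool.and_true, decide_true, Nat.mul_one, Bool.true_and,
        Nat.mod_self, zero_add]
    · have : (x i).val + 1 < n := by omega
      simp [h, Nat.mod_eq_of_lt this]

lemma inc_val (x : Fin k → Fin n) :
    valD x + 1 = valD (inc x) + n ^ k * (carry x k).toNat := by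
  have := carry_val x (inc x) (fun j : Fin (k + 1) => carry x j.val) (fun i => inc_incD x i)
  simpa [carry_zero] using this

lemma carry_top_false {x : Fin k → Fin n} (h : valD x + 1 < n ^ k) : carry x k = false := by
  have := inc_val x
  cases hc : carry x k with
  | false => rfl
  | true =>
    rw [hc] at this
    simp at this
    omega

lemma valD_inc_of_lt {x : Fin k → Fin n} (h : valD x + 1 < n ^ k) : valD (inc x) = valD x + 1 := by
  have := inc_val x
  rw [carry_top_false h] at this
  simpa using this.symm

lemma inc_injective : Function.Injective (inc (n := n) (k := k)) := by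
  intro x y h
  have h1 := inc_val x
  have h2 := inc_val y
  rw [h] at h1
  apply valD_inj
  have hx := valD_lt x
  have hy := valD_lt y
  have hi := valD_lt (inc y)
  cases hc1 : carry x k <;> cases hc2 : carry y k <;> simp only [hc1, hc2] at h1 h2 <;>
    simp at h1 h2 <;> omega

lemma inc_surjective : Function.Surjective (inc (n := n) (k := k)) :=
  Finite.surjective_of_injective inc_injective

/-- A digit string with a carry sequence starting at `true` and any end is the increment. -/
lemma eq_inc_of_carries {x y : Fin k → Fin n} {c : Fin (k + 1) → Bool} (h0 : c 0 = true)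
    (h : ∀ i : Fin k, incD (x i) (y i) (c i.castSucc) (c i.succ)) : y = inc x := by
  have h1 := carry_val x y c h
  rw [h0] at h1
  have h2 := inc_val x
  apply valD_inj
  have hx := valD_lt x
  have hy := valD_lt y
  have hi := valD_lt (inc x)
  cases hc1 : c (Fin.last k) <;> cases hc2 : carry x k <;> simp only [hc1, hc2] at h1 h2 <;>
    simp at h1 h2 <;> omega

lemma incAt_incD {j0 j : ℕ} {d d' : Fin n} (h : incAt j0 j d d') :
    incD d d' (decide (j ≤ j0)) (decide (j + 1 ≤ j0)) := by
  unfold incD
  rcases h with ⟨h1, h2, h3⟩ | ⟨h1, h2⟩ | ⟨h1, h2⟩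
  · have e1 : decide (j ≤ j0) = true := decide_eq_true (by omega)
    have e2 : decide (j + 1 ≤ j0) = true := decide_eq_true (by omega)
    rw [e1, e2, h3]
    simp [h2]
  · have e1 : decide (j ≤ j0) = true := decide_eq_true (by omega)
    have e2 : decide (j + 1 ≤ j0) = false := decide_eq_false (by omega)
    rw [e1, e2, h2]
    simp
  · have e1 : decide (j ≤ j0) = false := decide_eq_false (by omega)
    have e2 : decide (j + 1 ≤ j0) = false := decide_eq_false (by omega)
    rw [e1, e2, h2]
    simp

lemma eq_inc_of_incAt {x y : Fin k → Fin n} {j0 : ℕ} (h : ∀ j : Fin k, incAt j0 j.val (x j) (y j)) :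
    y = inc x :=
  eq_inc_of_carries (c := fun j : Fin (k + 1) => decide (j.val ≤ j0)) (by simp)
    (fun i => by simpa using incAt_incD (h i))

lemma val_of_incAt {x y : Fin k → Fin n} {j0 : ℕ} (hj0 : j0 < k)
    (h : ∀ j : Fin k, incAt j0 j.val (x j) (y j)) : valD y = valD x + 1 := by
  have := carry_val x y (fun j : Fin (k + 1) => decide (j.val ≤ j0))
    (fun i => by simpa using incAt_incD (h i))
  have e : decide ((Fin.last k).val ≤ j0) = false := decide_eq_false (by simp; omega)
  simp only [e] at this
  simp at this
  omega

lemma exists_incAt (x : Fin k → Fin n) : ∃ j0, j0 ≤ k ∧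
    (∀ j : Fin k, incAt j0 j.val (x j) (inc x j)) ∧ (valD x + 1 < n ^ k → j0 < k) := by
  classical
  have hex : ∃ j, j = k ∨ ∃ h : j < k, (x ⟨j, h⟩).val + 1 ≠ n := ⟨k, Or.inl rfl⟩
  refine ⟨Nat.find hex, ?_, ?_, ?_⟩
  · exact Nat.find_min' hex (Or.inl rfl)
  · have hspec := Nat.find_spec hex
    set j0 := Nat.find hex with hj0
    have hmax : ∀ i : Fin k, i.val < j0 → (x i).val + 1 = n := by
      intro i hi
      have := Nat.find_min hex hi
      push Not at this
      exact this.2 i.isLt
    have hle : ∀ j : ℕ, j ≤ j0 → carry x j = true := by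
      intro j hj
      unfold carry
      exact decide_eq_true fun i hi => hmax i (by omega)
    intro j
    rcases lt_trichotomy j.val j0 with h | h | h
    · left
      refine ⟨h, hmax j h, ?_⟩
      change ((x j).val + (carry x j.val).toNat) % n = 0
      rw [hle _ h.le]
      simp [hmax j h]
    · right
      left
      refine ⟨h, ?_⟩
      change ((x j).val + (carry x j.val).toNat) % n = (x j).val + 1
      rw [hle _ h.le]
      have hne : (x j).val + 1 ≠ n := by
        rcases hspec with e | ⟨h', e⟩
        · have := j.isLt
          omega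
        · have : j = ⟨j0, h'⟩ := Fin.ext h
          rw [this]
          exact e
      have := (x j).isLt
      simp only [Bool.toNat_true]
      exact Nat.mod_eq_of_lt (by omega)
    · right
      right
      refine ⟨h, ?_⟩
      apply Fin.ext
      change ((x j).val + (carry x j.val).toNat) % n = (x j).val
      have hf : carry x j.val = false := by
        unfold carry
        apply decide_eq_false
        intro hall
        rcases hspec with e | ⟨h', e⟩
        · have := j.isLt
          omega
        · exact e (hall ⟨j0, h'⟩ h)
      rw [hf]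
      simp only [Bool.toNat_false, add_zero]
      exact Nat.mod_eq_of_lt (x j).isLt
  · intro hlt
    have hf := carry_top_false hlt
    have hk : Nat.find hex ≤ k := Nat.find_min' hex (Or.inl rfl)
    by_contra hcon
    have he : Nat.find hex = k := by omega
    have hall : carry x k = true := by
      unfold carry
      refine decide_eq_true fun i hi => ?_
      have : i.val < Nat.find hex := by omega
      have h' := Nat.find_min hex this
      push Not at h'
      exact h'.2 i.isLt
    rw [hf] at hall
    exact absurd hall (by simp)

lemma valD_zero_digit {x : Fin k → Fin n} (h : valD x = 0) (i : Fin k) : (x i).val = 0 := by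
  unfold valD at h
  have := (Finset.sum_eq_zero_iff.mp h) i (mem_univ _)
  have hn : 0 < n := (x i).pos
  have hp : 0 < n ^ i.val := Nat.pow_pos hn
  rcases Nat.mul_eq_zero.mp this with e | e
  · exact e
  · omega

lemma valD_of_zero {x : Fin k → Fin n} (h : ∀ i, (x i).val = 0) : valD x = 0 := by
  unfold valD
  exact Finset.sum_eq_zero fun i _ => by rw [h i, zero_mul]

end

end Vale.Agent.Lib.P310U
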