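import Vale.Agent.Lib.P310U.DupC

set_option linter.unusedSectionVars false

namespace Vale.Agent.Lib.P310U

open Finset Vale.Agent.Lib.P310

section

variable {I Cl Let : Type} [Fintype I] [DecidableEq I] [Fintype Cl] [DecidableEq Cl]
  [Fintype Let] [DecidableEq Let]
variable {g : ℕ} (gr : Cl → Gr) (co : Let → I) (cov : Cl → Let → Prop)

lemma edge_inj {δ δ' : Door I Cl g} (h : edge gr δ = edge gr δ') : δ = δ' := by
  unfold edge at h
  rcases Sym2.eq_iff.mp h with ⟨h1, h2⟩ | ⟨h1, h2⟩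
  · exact door_inj gr h1 h2
  · exact (door_no_swap gr h1 h2).elim

lemma mem_frL_iff {l : Let} {δ : Door I Cl g} :
    edge gr δ ∈ frL gr co cov l ↔ reads co cov l δ := by
  classical
  unfold frL
  constructor
  · intro h
    obtain ⟨δ', hδ', he⟩ := mem_image.mp h
    rw [← edge_inj gr he]
    exact (mem_filter.mp hδ').2
  · intro h
    exact mem_image.mpr ⟨δ, mem_filter.mpr ⟨mem_univ _, h⟩, rfl⟩

lemma lad_not_fr {a b : RV I Cl g} (h : Lad a b) (l : Let) : s(a, b) ∉ frL gr co cov l := by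
  classical
  intro hm
  obtain ⟨δ, -, he⟩ := mem_image.mp hm
  unfold edge at he
  rcases Sym2.eq_iff.mp he with ⟨h1, h2⟩ | ⟨h1, h2⟩
  · exact dA_room_ne gr δ (by rw [h1, h2]; exact h.1)
  · exact dA_room_ne gr δ (by rw [h1, h2]; exact h.1.symm)

/-- The graph of free edges. -/
noncomputable abbrev FG (X : Finset (RV I Cl g ⊕ Let)) : SimpleGraph (RV I Cl g) :=
  freeG (rb gr) (frL gr co cov) X

lemma lad_free {X : Finset (RV I Cl g ⊕ Let)} {a b : RV I Cl g} (h : Lad a b)
    (ha : (Sum.inl a : RV I Cl g ⊕ Let) ∉ X) (hb : (Sum.inl b : RV I Cl g ⊕ Let) ∉ X) :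
    (FG gr co cov X).Adj a b :=
  ⟨Or.inl h, ha, hb, fun p _ => lad_not_fr gr co cov h p⟩

lemma door_free {X : Finset (RV I Cl g ⊕ Let)} {δ : Door I Cl g}
    (ha : (Sum.inl (dA gr δ) : RV I Cl g ⊕ Let) ∉ X)
    (hb : (Sum.inl (dB gr δ) : RV I Cl g ⊕ Let) ∉ X)
    (hr : ∀ l, (Sum.inr l : RV I Cl g ⊕ Let) ∈ X → ¬ reads co cov l δ) :
    (FG gr co cov X).Adj (dA gr δ) (dB gr δ) :=
  ⟨adj_door gr δ, ha, hb, fun p hp hm => hr p hp ((mem_frL_iff gr co cov).mp hm)⟩

lemma conn_col {X : Finset (RV I Cl g ⊕ Let)} {r : Room} {c : Cols I Cl g} {i i' : Bool}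
    (h1 : (Sum.inl (r, c, i) : RV I Cl g ⊕ Let) ∉ X)
    (h2 : (Sum.inl (r, c, i') : RV I Cl g ⊕ Let) ∉ X) :
    (FG gr co cov X).Reachable (r, c, i) (r, c, i') := by
  by_cases hii : i = i'
  · subst hii
    exact SimpleGraph.Reachable.refl _
  · exact (lad_free gr co cov (a := (r, c, i)) (b := (r, c, i')) ⟨rfl, Or.inl ⟨rfl, hii⟩⟩
      h1 h2).reachable

lemma conn_lane {X : Finset (RV I Cl g ⊕ Let)} {r : Room} {c c' : Cols I Cl g} {i : Bool}
    (hc : c.val + 1 = c'.val)
    (h1 : (Sum.inl (r, c, i) : RV I Cl g ⊕ Let) ∉ X)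
    (h2 : (Sum.inl (r, c', i) : RV I Cl g ⊕ Let) ∉ X) :
    (FG gr co cov X).Reachable (r, c, i) (r, c', i) :=
  (lad_free gr co cov (a := (r, c, i)) (b := (r, c', i)) ⟨rfl, Or.inr ⟨rfl, Or.inl hc⟩⟩
    h1 h2).reachable

/-- Consecutive columns with a free lane stay connected. -/
lemma conn_steps {X : Finset (RV I Cl g ⊕ Let)} {r : Room} :
    ∀ (n : ℕ) (c c' : Cols I Cl g) (i i' : Bool), c.val + n = c'.val →
      (∀ m < n, ∃ j : Bool, ∀ c1 : Cols I Cl g, (c1.val = c.val + m ∨ c1.val = c.val + m + 1) →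
        (Sum.inl (r, c1, j) : RV I Cl g ⊕ Let) ∉ X) →
      (Sum.inl (r, c, i) : RV I Cl g ⊕ Let) ∉ X →
      (Sum.inl (r, c', i') : RV I Cl g ⊕ Let) ∉ X →
      (FG gr co cov X).Reachable (r, c, i) (r, c', i') := by
  intro n
  induction n with
  | zero =>
    intro c c' i i' hcc _ h1 h2
    have : c = c' := Fin.ext (by omega)
    subst this
    exact conn_col gr co cov h1 h2
  | succ n ih =>
    intro c c' i i' hcc hj0 h1 h2
    have hlt : c.val + n < g * Fintype.card (Gr × I) + 4 * Fintype.card Cl := by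
      have := c'.isLt
      omega
    let c'' : Cols I Cl g := ⟨c.val + n, hlt⟩
    obtain ⟨j, hj⟩ := hj0 n (by omega)
    have hj1 := hj c'' (Or.inl rfl)
    have hj2 := hj c' (Or.inr (by omega))
    have r1 := ih c c'' i j rfl (fun m hm => hj0 m (by omega)) h1 hj1
    have r2 := conn_lane gr co cov (c := c'') (c' := c') (i := j) (by simp only [c'']; omega) hj1 hj2
    exact r1.trans (r2.trans (conn_col gr co cov hj2 h2))

/-- All columns of a range are free of pebbles in room `r`: all their vertices are connected. -/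
lemma conn_range {X : Finset (RV I Cl g ⊕ Let)} {r : Room} {lo hi : ℕ}
    (hU : ∀ (c : Cols I Cl g) (j : Bool), lo ≤ c.val → c.val < hi →
      (Sum.inl (r, c, j) : RV I Cl g ⊕ Let) ∉ X)
    {c c' : Cols I Cl g} {i i' : Bool} (h1 : lo ≤ c.val) (h2 : c.val < hi) (h3 : lo ≤ c'.val)
    (h4 : c'.val < hi) : (FG gr co cov X).Reachable (r, c, i) (r, c', i') := by
  have aux : ∀ (c c' : Cols I Cl g) (i i' : Bool), lo ≤ c.val → c'.val < hi → c.val ≤ c'.val →
      (FG gr co cov X).Reachable (r, c, i) (r, c', i') := by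
    intro c c' i i' h1 h4 hle
    refine conn_steps gr co cov (c'.val - c.val) c c' i i' (by omega) ?_ (hU _ _ h1 (by omega))
      (hU _ _ (by omega) h4)
    intro m hm
    refine ⟨false, fun c1 hc1 => hU _ _ ?_ ?_⟩ <;> omega
  rcases le_total c.val c'.val with hle | hle
  · exact aux _ _ _ _ h1 h4 hle
  · exact (aux _ _ _ _ h3 h2 hle).symm

/-- Two pebbles in two consecutive columns of a room. -/
def Barrier (X : Finset (RV I Cl g ⊕ Let)) (r : Room) : Prop :=
  ∃ c : ℕ, 2 ≤ (X.toLeft.filter fun v => v.1 = r ∧ (v.2.1.val = c ∨ v.2.1.val = c + 1)).card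

lemma Barrier.mono {X X' : Finset (RV I Cl g ⊕ Let)} {r : Room} (h : X' ⊆ X)
    (hb : Barrier X' r) : Barrier X r := by
  obtain ⟨c, hc⟩ := hb
  refine ⟨c, hc.trans (card_le_card ?_)⟩
  exact filter_subset_filter _ (toLeft_subset_toLeft h)

lemma exists_free_lane {X : Finset (RV I Cl g ⊕ Let)} {r : Room} (hb : ¬ Barrier X r) (c : ℕ) :
    ∃ j : Bool, ∀ c1 : Cols I Cl g, (c1.val = c ∨ c1.val = c + 1) →
      (Sum.inl (r, c1, j) : RV I Cl g ⊕ Let) ∉ X := by
  by_contra hcon
  push Not at hcon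
  obtain ⟨c1, h1, h2⟩ := hcon false
  obtain ⟨c2, h3, h4⟩ := hcon true
  apply hb
  refine ⟨c, ?_⟩
  have : 1 < (X.toLeft.filter fun v => v.1 = r ∧ (v.2.1.val = c ∨ v.2.1.val = c + 1)).card := by
    refine one_lt_card.mpr ⟨(r, c1, false), ?_, (r, c2, true), ?_, by simp⟩
    · rw [mem_filter, mem_toLeft]
      exact ⟨h2, rfl, h1⟩
    · rw [mem_filter, mem_toLeft]
      exact ⟨h4, rfl, h3⟩
  omega

/-- Without a barrier a room stays connected. -/
lemma conn_room {X : Finset (RV I Cl g ⊕ Let)} {r : Room} (hb : ¬ Barrier X r)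
    {c c' : Cols I Cl g} {i i' : Bool}
    (h1 : (Sum.inl (r, c, i) : RV I Cl g ⊕ Let) ∉ X)
    (h2 : (Sum.inl (r, c', i') : RV I Cl g ⊕ Let) ∉ X) :
    (FG gr co cov X).Reachable (r, c, i) (r, c', i') := by
  have aux : ∀ (c c' : Cols I Cl g) (i i' : Bool), c.val ≤ c'.val →
      (Sum.inl (r, c, i) : RV I Cl g ⊕ Let) ∉ X → (Sum.inl (r, c', i') : RV I Cl g ⊕ Let) ∉ X →
      (FG gr co cov X).Reachable (r, c, i) (r, c', i') := by
    intro c c' i i' hle h1 h2
    refine conn_steps gr co cov (c'.val - c.val) c c' i i' (by omega) ?_ h1 h2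
    intro m _
    exact exists_free_lane hb (c.val + m)
  rcases le_total c.val c'.val with hle | hle
  · exact aux _ _ _ _ hle h1 h2
  · exact (aux _ _ _ _ hle h2 h1).symm

/-- At most one room has a barrier when there are at most three pebbled vertices. -/
lemma barrier_unique {X : Finset (RV I Cl g ⊕ Let)} (hT : X.toLeft.card ≤ 3) {r r' : Room}
    (h : Barrier X r) (h' : Barrier X r') : r = r' := by
  classical
  by_contra hne
  obtain ⟨c, hc⟩ := h
  obtain ⟨c', hc'⟩ := h'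
  have hd : Disjoint (X.toLeft.filter fun v => v.1 = r ∧ (v.2.1.val = c ∨ v.2.1.val = c + 1))
      (X.toLeft.filter fun v => v.1 = r' ∧ (v.2.1.val = c' ∨ v.2.1.val = c' + 1)) := by
    refine disjoint_left.mpr fun v hv hv' => hne ?_
    rw [mem_filter] at hv hv'
    rw [← hv.2.1, hv'.2.1]
  have h1 := card_union_of_disjoint hd
  have h2 : (X.toLeft.filter fun v => v.1 = r ∧ (v.2.1.val = c ∨ v.2.1.val = c + 1)) ∪
      (X.toLeft.filter fun v => v.1 = r' ∧ (v.2.1.val = c' ∨ v.2.1.val = c' + 1)) ⊆ X.toLeft :=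
    union_subset (filter_subset _ _) (filter_subset _ _)
  have h3 := card_le_card h2
  omega

/-- Column `c` belongs to chunk `a`. -/
def InChunk (a : Fin g) (c : Cols I Cl g) : Prop :=
  a.val * Fintype.card (Gr × I) ≤ c.val ∧ c.val < (a.val + 1) * Fintype.card (Gr × I)

lemma colF_inChunk (a : Fin g) (x : Gr × I) : InChunk a (colF (Cl := Cl) a x) := by
  unfold InChunk
  rw [colF_val]
  have h1 := (Fintype.equivFin (Gr × I) x).isLt
  have h3 : (a.val + 1) * Fintype.card (Gr × I) =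
    a.val * Fintype.card (Gr × I) + Fintype.card (Gr × I) := by ring
  omega

lemma inChunk_unique {a a' : Fin g} {c : Cols I Cl g} (h : InChunk a c) (h' : InChunk a' c) :
    a = a' := by
  have h1 : a.val * Fintype.card (Gr × I) < (a'.val + 1) * Fintype.card (Gr × I) :=
    lt_of_le_of_lt h.1 h'.2
  have h2 : a'.val * Fintype.card (Gr × I) < (a.val + 1) * Fintype.card (Gr × I) :=
    lt_of_le_of_lt h'.1 h.2
  have h3 := Nat.lt_of_mul_lt_mul_right h1
  have h4 := Nat.lt_of_mul_lt_mul_right h2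
  exact Fin.ext (by omega)

/-- Chunk `a` of room `r` has no pebble. -/
def Unt (X : Finset (RV I Cl g ⊕ Let)) (r : Room) (a : Fin g) : Prop :=
  ∀ (c : Cols I Cl g) (j : Bool), InChunk a c → (Sum.inl (r, c, j) : RV I Cl g ⊕ Let) ∉ X

lemma Unt.mono {X X' : Finset (RV I Cl g ⊕ Let)} (h : X' ⊆ X) {r : Room} {a : Fin g}
    (hU : Unt X r a) : Unt X' r a := fun c j hc hm => hU c j hc (h hm)

lemma exists_unt {X : Finset (RV I Cl g ⊕ Let)} (hX : X.toLeft.card < g) (r : Room) :
    ∃ a : Fin g, Unt X r a := by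
  by_contra hcon
  unfold Unt at hcon
  push Not at hcon
  choose φ ψ h1 h2 using hcon
  have : (univ : Finset (Fin g)).card ≤ X.toLeft.card := by
    apply Finset.card_le_card_of_injOn (fun a => (r, φ a, ψ a))
    · intro a _
      rw [mem_coe, mem_toLeft]
      exact h2 a
    · intro a _ a' _ h
      simp only [Prod.mk.injEq, true_and] at h
      have h3 := h1 a
      rw [h.1] at h3
      exact inChunk_unique h3 (h1 a')
  simp only [card_univ, Fintype.card_fin] at this
  omega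

/-- A vertex in an untouched chunk. -/
def IsSite (X : Finset (RV I Cl g ⊕ Let)) (v : RV I Cl g) : Prop :=
  ∃ a : Fin g, InChunk a v.2.1 ∧ Unt X v.1 a

lemma IsSite.mono {X X' : Finset (RV I Cl g ⊕ Let)} (h : X' ⊆ X) {v : RV I Cl g}
    (hv : IsSite X v) : IsSite X' v := by
  obtain ⟨a, h1, h2⟩ := hv
  exact ⟨a, h1, h2.mono h⟩

lemma IsSite.notMem {X : Finset (RV I Cl g ⊕ Let)} {v : RV I Cl g}
    (hv : IsSite X v) : (Sum.inl v : RV I Cl g ⊕ Let) ∉ X := by
  obtain ⟨a, h1, h2⟩ := hv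
  exact h2 v.2.1 v.2.2 h1

lemma conn_chunk {X : Finset (RV I Cl g ⊕ Let)} {r : Room} {a : Fin g} (hU : Unt X r a)
    {c c' : Cols I Cl g} {i i' : Bool} (h1 : InChunk a c) (h2 : InChunk a c') :
    (FG gr co cov X).Reachable (r, c, i) (r, c', i') :=
  conn_range gr co cov (lo := a.val * Fintype.card (Gr × I))
    (hi := (a.val + 1) * Fintype.card (Gr × I)) (fun c j h3 h4 => hU c j ⟨h3, h4⟩) h1.1 h1.2 h2.1 h2.2

/-- With a missing coordinate `i`, sites in the two end rooms of a group are connected. -/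
lemma reach_group {X : Finset (RV I Cl g ⊕ Let)} {i : I}
    (hi : ∀ l, (Sum.inr l : RV I Cl g ⊕ Let) ∈ X → co l ≠ i) (G : Gr) {u v : RV I Cl g}
    (hu : IsSite X u) (hv : IsSite X v) (hur : u.1 = grA G) (hvr : v.1 = grB G) :
    (FG gr co cov X).Reachable u v := by
  obtain ⟨a, ha, hUa⟩ := hu
  obtain ⟨b, hb, hUb⟩ := hv
  obtain ⟨r1, c1, l1⟩ := u
  obtain ⟨r2, c2, l2⟩ := v
  simp only at ha hb hUa hUb hur hvr
  subst hur
  subst hvr
  let δ : Door I Cl g := Sum.inr ((G, i), a, b)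
  have hA : dA gr δ = (grA G, colF a (G, i), false) := rfl
  have hB : dB gr δ = (grB G, colF b (G, i), false) := rfl
  have hadj : (FG gr co cov X).Adj (dA gr δ) (dB gr δ) := by
    refine door_free gr co cov ?_ ?_ ?_
    · rw [hA]
      exact hUa _ _ (colF_inChunk a _)
    · rw [hB]
      exact hUb _ _ (colF_inChunk b _)
    · intro l hl hr
      exact hi l hl hr
  rw [hA, hB] at hadj
  exact (conn_chunk gr co cov hUa ha (colF_inChunk a _)).trans
    (hadj.reachable.trans (conn_chunk gr co cov hUb (colF_inChunk b _) hb))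

lemma hubs_pair : ∀ τ τ' : Fin 3, τ ≠ τ' → ∃ ρ : Fin 3, τ = ρ + 1 ∧ τ' = ρ + 2 ∨ τ = ρ + 2 ∧ τ' = ρ + 1 := by
  decide

lemma exists_other : ∀ τ : Fin 3, ∃ τ' : Fin 3, τ ≠ τ' := by decide

/-- With a missing coordinate all sites are connected. -/
theorem reach_sites {X : Finset (RV I Cl g ⊕ Let)} {i : I}
    (hi : ∀ l, (Sum.inr l : RV I Cl g ⊕ Let) ∈ X → co l ≠ i) (hX : X.toLeft.card < g)
    {u v : RV I Cl g} (hu : IsSite X u) (hv : IsSite X v) :
    (FG gr co cov X).Reachable u v := by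
  -- reference sites of the hubs
  have hg : ∀ τ : Fin 3, ∃ w : RV I Cl g, w.1 = (τ, false) ∧ IsSite X w := by
    intro τ
    obtain ⟨a, ha⟩ := exists_unt hX (τ, false)
    exact ⟨((τ, false), colF a (Sum.inl 0, i), false), rfl, a, colF_inChunk a _, ha⟩
  have hh : ∀ τ τ' : Fin 3, τ ≠ τ' → ∀ w w' : RV I Cl g, w.1 = (τ, false) → IsSite X w →
      w'.1 = (τ', false) → IsSite X w' → (FG gr co cov X).Reachable w w' := by
    intro τ τ' hne w w' h1 h2 h3 h4
    obtain ⟨ρ, ⟨e1, e2⟩ | ⟨e1, e2⟩⟩ := hubs_pair τ τ' hne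
    · exact reach_group gr co cov hi (Sum.inl ρ) h2 h4 (by rw [h1, e1]; rfl) (by rw [h3, e2]; rfl)
    · exact (reach_group gr co cov hi (Sum.inl ρ) h4 h2 (by rw [h3, e2]; rfl)
        (by rw [h1, e1]; rfl)).symm
  have hh' : ∀ τ τ' : Fin 3, ∀ w w' : RV I Cl g, w.1 = (τ, false) → IsSite X w →
      w'.1 = (τ', false) → IsSite X w' → (FG gr co cov X).Reachable w w' := by
    intro τ τ' w w' h1 h2 h3 h4
    by_cases hne : τ = τ'
    · subst hne
      obtain ⟨τ'', hne''⟩ := exists_other τ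
      obtain ⟨w'', h5, h6⟩ := hg τ''
      exact (hh _ _ hne'' _ _ h1 h2 h5 h6).trans (hh _ _ hne''.symm _ _ h5 h6 h3 h4)
    · exact hh _ _ hne _ _ h1 h2 h3 h4
  have hp : ∀ w : RV I Cl g, IsSite X w → ∃ w' : RV I Cl g, w'.1 = (w.1.1, false) ∧ IsSite X w' ∧
      (FG gr co cov X).Reachable w w' := by
    intro w hw
    obtain ⟨w', h1, h2⟩ := hg w.1.1
    refine ⟨w', h1, h2, ?_⟩
    rcases hr : w.1 with ⟨τ, l⟩
    cases l with
    | false =>
      exact hh' τ τ w w' hr hw (by rw [h1, hr]) h2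
    | true =>
      exact (reach_group gr co cov hi (Sum.inr τ) h2 hw (by rw [h1, hr]; rfl) hr).symm
  obtain ⟨u', h1, h2, h3⟩ := hp u hu
  obtain ⟨v', h4, h5, h6⟩ := hp v hv
  exact h3.trans ((hh' _ _ _ _ h1 h2 h4 h5).trans h6.symm)

/-- Column `c` belongs to period `P`. -/
def InPer (P : Fin 4) (c : Cols I Cl g) : Prop :=
  g * Fintype.card (Gr × I) + P.val * Fintype.card Cl ≤ c.val ∧
    c.val < g * Fintype.card (Gr × I) + (P.val + 1) * Fintype.card Cl

lemma colC_inPer (P : Fin 4) (κ : Cl) : InPer P (colC (I := I) (g := g) P κ) := by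
  unfold InPer
  rw [colC_val]
  have h1 := (Fintype.equivFin Cl κ).isLt
  have h3 : (P.val + 1) * Fintype.card Cl = P.val * Fintype.card Cl + Fintype.card Cl := by ring
  omega

lemma inPer_unique {P P' : Fin 4} {c : Cols I Cl g} (h : InPer P c) (h' : InPer P' c) :
    P = P' := by
  have h1 : P.val * Fintype.card Cl < (P'.val + 1) * Fintype.card Cl := by
    have := h.1
    have := h'.2
    omega
  have h2 : P'.val * Fintype.card Cl < (P.val + 1) * Fintype.card Cl := by
    have := h'.1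
    have := h.2
    omega
  have h3 := Nat.lt_of_mul_lt_mul_right h1
  have h4 := Nat.lt_of_mul_lt_mul_right h2
  exact Fin.ext (by omega)

/-- Period `P` has no pebble in any room. -/
def UntP (X : Finset (RV I Cl g ⊕ Let)) (P : Fin 4) : Prop :=
  ∀ (r : Room) (c : Cols I Cl g) (j : Bool), InPer P c → (Sum.inl (r, c, j) : RV I Cl g ⊕ Let) ∉ X

lemma UntP.mono {X X' : Finset (RV I Cl g ⊕ Let)} (h : X' ⊆ X) {P : Fin 4}
    (hU : UntP X P) : UntP X' P := fun r c j hc hm => hU r c j hc (h hm)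

lemma exists_untP {X : Finset (RV I Cl g ⊕ Let)} (hX : X.toLeft.card ≤ 3) :
    ∃ P : Fin 4, UntP X P := by
  by_contra hcon
  unfold UntP at hcon
  push Not at hcon
  choose ρ φ ψ h1 h2 using hcon
  have : (univ : Finset (Fin 4)).card ≤ X.toLeft.card := by
    apply Finset.card_le_card_of_injOn (fun a => (ρ a, φ a, ψ a))
    · intro a _
      rw [mem_coe, mem_toLeft]
      exact h2 a
    · intro a _ a' _ h
      simp only [Prod.mk.injEq] at h
      have h3 := h1 a
      rw [h.2.1] at h3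
      exact inPer_unique h3 (h1 a')
  simp only [card_univ, Fintype.card_fin] at this
  omega

lemma conn_period {X : Finset (RV I Cl g ⊕ Let)} {P : Fin 4} (hU : UntP X P) {r : Room}
    {c c' : Cols I Cl g} {i i' : Bool} (h1 : InPer P c) (h2 : InPer P c') :
    (FG gr co cov X).Reachable (r, c, i) (r, c', i') :=
  conn_range gr co cov (lo := g * Fintype.card (Gr × I) + P.val * Fintype.card Cl)
    (hi := g * Fintype.card (Gr × I) + (P.val + 1) * Fintype.card Cl)
    (fun c j h3 h4 => hU r c j ⟨h3, h4⟩) h1.1 h1.2 h2.1 h2.2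

/-- Group `G` has all its clauses covered by the letters `F`. -/
def Cv (G : Gr) (F : Finset Let) : Prop := ∀ κ, gr κ = G → ∃ l ∈ F, cov κ l

/-- A door of an uncovered clause in a free period is free. -/
lemma clause_door_free {X : Finset (RV I Cl g ⊕ Let)} {P : Fin 4} (hU : UntP X P) {κ : Cl}
    (hκ : ∀ l ∈ X.toRight, ¬ cov κ l) :
    (FG gr co cov X).Adj (grA (gr κ), colC (I := I) (g := g) P κ, false)
      (grB (gr κ), colC P κ, false) := by
  let δ : Door I Cl g := Sum.inl (κ, P)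
  have hA : dA gr δ = (grA (gr κ), colC P κ, false) := rfl
  have hB : dB gr δ = (grB (gr κ), colC P κ, false) := rfl
  rw [← hA, ← hB]
  refine door_free gr co cov ?_ ?_ ?_
  · rw [hA]
    exact hU _ _ _ (colC_inPer P κ)
  · rw [hB]
    exact hU _ _ _ (colC_inPer P κ)
  · intro l hl hr
    exact hκ l (mem_toRight.mpr hl) hr

/-- The root of a hub in a period. -/
noncomputable def rootH (P : Fin 4) (κ₀ : Cl) (τ : Fin 3) : RV I Cl g :=
  ((τ, false), colC P κ₀, false)

lemma open_reach {X : Finset (RV I Cl g ⊕ Let)} {P : Fin 4} (hU : UntP X P) (κ₀ : Cl) {ρ : Fin 3}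
    (hρ : ¬ Cv gr cov (Sum.inl ρ) X.toRight) :
    (FG gr co cov X).Reachable (rootH P κ₀ (ρ + 1)) (rootH P κ₀ (ρ + 2)) := by
  unfold Cv at hρ
  push Not at hρ
  obtain ⟨κ, h1, h2⟩ := hρ
  have hadj := clause_door_free gr co cov hU h2
  rw [h1] at hadj
  exact (conn_period gr co cov hU (colC_inPer P κ₀) (colC_inPer P κ)).trans
    (hadj.reachable.trans (conn_period gr co cov hU (colC_inPer P κ) (colC_inPer P κ₀)))

/-- A vertex of a region without barrier reaches the root of the region. -/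
lemma reach_root {X : Finset (RV I Cl g ⊕ Let)} {P : Fin 4} (hU : UntP X P) (κ₀ : Cl)
    {v : RV I Cl g} (hv : (Sum.inl v : RV I Cl g ⊕ Let) ∉ X) (hb : ¬ Barrier X v.1)
    (hp : v.1.2 = true → ¬ Cv gr cov (Sum.inr v.1.1) X.toRight) :
    (FG gr co cov X).Reachable v (rootH P κ₀ v.1.1) := by
  obtain ⟨⟨τ, l⟩, c, i⟩ := v
  simp only at hb hp
  cases l with
  | false =>
    exact conn_room gr co cov hb hv (hU _ _ _ (colC_inPer P κ₀))
  | true =>
    have h := hp rfl
    unfold Cv at h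
    push Not at h
    obtain ⟨κ, h1, h2⟩ := h
    have hadj := clause_door_free gr co cov hU h2
    rw [h1] at hadj
    have r1 : (FG gr co cov X).Reachable ((τ, true), c, i) ((τ, true), colC P κ, false) :=
      conn_room gr co cov hb hv (hU _ _ _ (colC_inPer P κ))
    refine r1.trans (hadj.symm.reachable.trans ?_)
    exact conn_period gr co cov hU (colC_inPer P κ) (colC_inPer P κ₀)

end

end Vale.Agent.Lib.P310U
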