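import Vale.Agent.Lib.P310U.NoCase2

set_option linter.unusedSectionVars false

namespace Vale.Agent.Lib.P310U

open Finset Vale.Agent.Lib.P310

section

variable {I Cl Let : Type} [Fintype I] [DecidableEq I] [Fintype Cl] [DecidableEq Cl]
  [Fintype Let] [DecidableEq Let]
variable {g : ℕ} (gr : Cl → Gr) (co : Let → I) (cov : Cl → Let → Prop) {d : ℕ}

/-- The equation of the charge `ι` can be derived with the letters `F` in dimension `d`. -/
def Der (g d : ℕ) (ι : Room → ZMod 2) (F : Finset Let) : Prop :=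
  ∃ R, Line gr co cov (twistR (I := I) (g := g)) d ι F R

/-- All doors in the equation of the charge `ι` are read by `F`. -/
def Covers (g : ℕ) (ι : Room → ZMod 2) (F : Finset Let) : Prop :=
  ∀ δ : Door I Cl g, cfOf gr ι δ ≠ 0 → ∃ q ∈ F, edge gr δ ∈ frL gr co cov q

variable {gr co cov}

lemma Der.congr {ι ι' : Room → ZMod 2} {F : Finset Let} (h : Der gr co cov g d ι F)
    (he : ∀ r, ι r = ι' r) : Der gr co cov g d ι' F := by
  have : ι = ι' := funext he
  rwa [← this]

lemma Der.add {ι ι' : Room → ZMod 2} {F : Finset Let} (h : Der gr co cov g d ι F)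
    (h' : Der gr co cov g d ι' F) : Der gr co cov g d (fun r => ι r + ι' r) F := by
  obtain ⟨R, hR⟩ := h
  obtain ⟨R', hR'⟩ := h'
  refine ⟨max R R', ?_⟩
  have := LineG.add hR hR'
  intro x y hc hx
  have h2 := this x y hc hx
  simp only at h2
  convert h2 using 2
  unfold cfOf
  ring

lemma Der.up {ι : Room → ZMod 2} {F F' : Finset Let} (h : Der gr co cov g d ι F) (hF : F ⊆ F') :
    Der gr co cov g d ι F' := by
  obtain ⟨R, hR⟩ := h
  exact ⟨R, LineG.up hR hF⟩

lemma Der.down (hd : 2 ≤ d) {ι : Room → ZMod 2} {F : Finset Let} {p : Let}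
    (hcard : (insert p F).card ≤ d) (hcov : Covers gr co cov g ι F)
    (h : Der gr co cov g d ι (insert p F)) : Der gr co cov g d ι F := by
  obtain ⟨R, hR⟩ := h
  exact ⟨R + 2, LineG.down_step hd hcard hcov hR⟩

lemma der_room (hd : 2 ≤ d) (hℓ : 0 < g * Fintype.card (Gr × I) + 4 * Fintype.card Cl)
    (r : Room) {F : Finset Let} (hF : F.card + 2 ≤ d) (hc : Covers gr co cov g (indR r) F) :
    Der gr co cov g d (indR r) F :=
  ⟨_, line_sweep gr co cov hd hℓ r hF hc⟩

/-- Coverage from coverage of the crossing groups and letters for all coordinates. -/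
lemma covers_of {ι : Room → ZMod 2} {F : Finset Let} (hR : RegL co F)
    (h : ∀ G, ι (grA G) + ι (grB G) ≠ 0 → Cv gr cov G F) : Covers gr co cov g ι F := by
  intro δ hδ
  rcases δ with ⟨κ, P⟩ | ⟨x, a, b⟩
  · obtain ⟨l, hl, hc⟩ := h (gr κ) hδ κ rfl
    exact ⟨l, hl, (mem_frL_iff gr co cov).mpr hc⟩
  · obtain ⟨l, hl, hc⟩ := hR x.2
    exact ⟨l, hl, (mem_frL_iff gr co cov).mpr hc⟩

lemma twistR_eq_unit (hℓ : 0 < g * Fintype.card (Gr × I) + 4 * Fintype.card Cl) (v : RV I Cl g) :
    twistR v = unitC (((0, false), ⟨0, hℓ⟩, false) : RV I Cl g) v := by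
  obtain ⟨r, c, l⟩ := v
  unfold twistR unitC
  have : (r = (0, false) ∧ c.val = 0 ∧ l = false) ↔
      ((r, c, l) : RV I Cl g) = ((0, false), ⟨0, hℓ⟩, false) := by
    simp only [Prod.mk.injEq, Fin.ext_iff]
  simp only [this]

/-- The equation of the constant charge separates the two graphs. -/
theorem not_wl_of_der (hℓ : 0 < g * Fintype.card (Gr × I) + 4 * Fintype.card Cl) (l₀ : Let)
    {F : Finset Let} (hF : F.card ≤ d) (h : Der gr co cov g d (fun _ => 1) F) :
    ¬ WLEquiv d (vtGraph (rb (I := I) (g := g) gr) (frL gr co cov) (fun _ => 0))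
      (vtGraph (rb (I := I) (g := g) gr) (frL gr co cov) twistR) := by
  obtain ⟨R, hR⟩ := h
  refine not_wl_of_line (Sum.inr l₀) hF (fun δ => ?_) ?_ hR
  · unfold cfOf
    exact zmod2_add_self _
  · simp only [one_mul]
    rw [Finset.sum_congr rfl fun v _ => twistR_eq_unit hℓ v]
    exact sum_unitC _

end

end Vale.Agent.Lib.P310U
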