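import Vale.Agent.Lib.P310U.Sweep

set_option linter.unusedSectionVars false

namespace Vale.Agent.Lib.P310U

open Finset Vale.Agent.Lib.P310

section

variable {BV Pr : Type} [Fintype BV] [DecidableEq BV] [Fintype Pr] [DecidableEq Pr]
variable {B : SimpleGraph BV} [DecidableRel B.Adj] {Fr : Pr → Finset (Sym2 BV)}

variable (Safe : Finset (BV ⊕ Pr) → (BV → ZMod 2) → Prop)

/-- The Duplicator invariant with a charge `b`: `y` is the translate of `x` by `f`, the boundary of
`f` accounts for the difference of the parity functions except for `b`, and `b` is safe. -/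
def DInvC {d : ℕ} (t t' : BV → ZMod 2) (x : Fin d → VT B Fr t) (y : Fin d → VT B Fr t')
    (f : Sym2 BV → ZMod 2) (b : BV → ZMod 2) : Prop :=
  (∀ j, (y j).1 = trA B Fr f (x j).1) ∧
    (∀ v, t' v = t v + bd B f v + b v) ∧ Safe (clsT x) b

/-- The translation argument with charges. -/
theorem dup_charge {d : ℕ} (t t' : BV → ZMod 2)
    (hS1 : ∀ X b, Safe X b → ∀ v, Sum.inl v ∈ X → b v = 0)
    (hS2 : ∀ X X' b, X' ⊆ X → Safe X b → Safe X' b)
    (hS3 : ∀ X b, Safe X b → X.card ≤ d → ∀ c, ∃ (b' : BV → ZMod 2) (g : Sym2 BV → ZMod 2),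
      Safe (insert c X) b' ∧ (∀ v, bd B g v = b v + b' v) ∧
      ∀ c' ∈ X, ∀ e ∈ edgesOf B Fr c', g e = 0) :
    ∀ (r : ℕ) (x : Fin d → VT B Fr t) (y : Fin d → VT B Fr t') (f : Sym2 BV → ZMod 2)
      (b : BV → ZMod 2),
      DInvC Safe t t' x y f b → wlColor (vtGraph B Fr t) r x = wlColor (vtGraph B Fr t') r y := by
  intro r
  induction r with
  | zero =>
    rintro x y f b ⟨h1, -, -⟩
    funext i j
    change (x i = x j, (ambGraph B Fr).Adj (x i).1 (x j).1) =
      (y i = y j, (ambGraph B Fr).Adj (y i).1 (y j).1)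
    rw [h1 i, h1 j, amb_adj_trA, Prod.mk.injEq]
    refine ⟨propext ?_, rfl⟩
    constructor
    · intro h
      apply Subtype.ext
      rw [h1 i, h1 j, h]
    · intro h
      apply Subtype.ext
      have := congrArg Subtype.val h
      rw [h1 i, h1 j] at this
      exact trA_injective B Fr f this
  | succ r ih =>
    rintro x y f b hI
    refine wlColor_succ_eq_iff.mpr ⟨ih x y f b hI, ?_⟩
    obtain ⟨h1, h2, h3⟩ := hI
    have hS3' := hS3 _ _ h3 (clsT_card_le x)
    choose bc gc hsafe hbd hvan using hS3'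
    have hpar : ∀ c v, c = Sum.inl v → t' v = t v + bd B (fun e => f e + gc c e) v := by
      intro c v hc
      rw [bd_add, h2 v, hbd c v]
      have hne : bc c v = 0 := by
        refine hS1 _ _ (hsafe c) v ?_
        rw [← hc]
        exact mem_insert_self _ _
      rw [hne, add_zero, add_assoc]
    have hpar' : ∀ c v, c = Sum.inl v → t v = t' v + bd B (fun e => f e + gc c e) v := by
      intro c v hc
      rw [hpar c v hc, zmod2_add_add_self]
    have okF : ∀ a : VT B Fr t,
        vtOK B Fr t' (trA B Fr (fun e => f e + gc a.1.1.1 e) a.1) := by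
      intro a
      refine ⟨parity_trN B Fr t t' _ _ (fun v hv => hpar _ v hv) a.2.1, a.2.2⟩
    have okB : ∀ b : VT B Fr t',
        vtOK B Fr t (trA B Fr (fun e => f e + gc b.1.1.1 e) b.1) := by
      intro b
      refine ⟨parity_trN B Fr t' t _ _ (fun v hv => hpar' _ v hv) b.2.1, b.2.2⟩
    let π : VT B Fr t ≃ VT B Fr t' :=
      { toFun := fun a => ⟨trA B Fr (fun e => f e + gc a.1.1.1 e) a.1, okF a⟩
        invFun := fun b => ⟨trA B Fr (fun e => f e + gc b.1.1.1 e) b.1, okB b⟩
        left_inv := by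
          intro a
          apply Subtype.ext
          exact trA_trA B Fr _ a.1
        right_inv := by
          intro b
          apply Subtype.ext
          exact trA_trA B Fr _ b.1 }
    refine ⟨π, fun a i => ?_⟩
    refine ih (Function.update x i a) (Function.update y i (π a))
      (fun e => f e + gc a.1.1.1 e) (bc a.1.1.1) ⟨?_, ?_, ?_⟩
    · intro j
      by_cases hj : j = i
      · subst hj
        simp only [Function.update_self]
        rfl
      · simp only [Function.update_of_ne hj]
        rw [h1 j]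
        have hv := hvan a.1.1.1 _ (mem_clsT x j)
        unfold trA trN
        congr 2
        funext e
        change _ + f e.1 = _ + (f e.1 + gc a.1.1.1 e.1)
        rw [hv e.1 e.2, add_zero]
    · intro v
      rw [bd_add, h2 v, hbd a.1.1.1 v]
      generalize b v = A
      generalize bc a.1.1.1 v = C
      generalize t v = T
      generalize bd B f v = F
      revert A C T F
      decide
    · exact hS2 _ _ _ (clsT_update_subset x i a) (hsafe _)

/-- Two charges are related when their sum is the boundary of an edge function vanishing on the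
edges of the classes in `X`. -/
def Rel (B : SimpleGraph BV) [DecidableRel B.Adj] (Fr : Pr → Finset (Sym2 BV))
    (X : Finset (BV ⊕ Pr)) (b b' : BV → ZMod 2) : Prop :=
  ∃ g : Sym2 BV → ZMod 2, (∀ v, bd B g v = b v + b' v) ∧ ∀ c' ∈ X, ∀ e ∈ edgesOf B Fr c', g e = 0

variable {X : Finset (BV ⊕ Pr)}

lemma Rel.refl (b : BV → ZMod 2) : Rel B Fr X b b := by
  refine ⟨fun _ => 0, fun v => ?_, fun _ _ _ _ => rfl⟩
  unfold bd
  simp only [Finset.sum_const_zero]
  exact (zmod2_add_self _).symm

lemma Rel.of_eq {b b' : BV → ZMod 2} (h : ∀ v, b v = b' v) : Rel B Fr X b b' := by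
  have : b = b' := funext h
  rw [this]
  exact Rel.refl _

lemma Rel.symm {b b' : BV → ZMod 2} (h : Rel B Fr X b b') : Rel B Fr X b' b := by
  obtain ⟨g, h1, h2⟩ := h
  exact ⟨g, fun v => by rw [h1, add_comm], h2⟩

lemma zmod2_chain (a b c : ZMod 2) : (a + b) + (b + c) = a + c := by
  revert a b c
  decide

lemma Rel.trans {b b' b'' : BV → ZMod 2} (h : Rel B Fr X b b') (h' : Rel B Fr X b' b'') :
    Rel B Fr X b b'' := by
  obtain ⟨g, h1, h2⟩ := h
  obtain ⟨g', h3, h4⟩ := h'
  refine ⟨fun e => g e + g' e, fun v => ?_, fun c hc e he => ?_⟩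
  · rw [bd_add, h1, h3, zmod2_chain]
  · simp only
    rw [h2 c hc e he, h4 c hc e he, add_zero]

lemma zmod2_swap4 (a b c e : ZMod 2) : (a + b) + (c + e) = (a + c) + (b + e) := by
  revert a b c e
  decide

lemma Rel.add {a a' c c' : BV → ZMod 2} (h : Rel B Fr X a a') (h' : Rel B Fr X c c') :
    Rel B Fr X (fun v => a v + c v) (fun v => a' v + c' v) := by
  obtain ⟨g, h1, h2⟩ := h
  obtain ⟨g', h3, h4⟩ := h'
  refine ⟨fun e => g e + g' e, fun v => ?_, fun c hc e he => ?_⟩
  · rw [bd_add, h1, h3, zmod2_swap4]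
  · simp only
    rw [h2 c hc e he, h4 c hc e he, add_zero]

lemma Rel.zero_zero : Rel B Fr X (fun _ => 0) (fun _ => 0) := Rel.refl _

lemma Rel.smul {a a' : BV → ZMod 2} (k : ZMod 2) (h : Rel B Fr X a a') :
    Rel B Fr X (fun v => k * a v) (fun v => k * a' v) := by
  have hk : k = 0 ∨ k = 1 := by
    revert k
    decide
  rcases hk with rfl | rfl
  · simpa using Rel.refl (B := B) (Fr := Fr) (X := X) (fun _ => (0 : ZMod 2))
  · simpa using h

lemma Rel.sum {α : Type} (s : Finset α) {a a' : α → BV → ZMod 2}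
    (h : ∀ i ∈ s, Rel B Fr X (a i) (a' i)) :
    Rel B Fr X (fun v => ∑ i ∈ s, a i v) (fun v => ∑ i ∈ s, a' i v) := by
  classical
  induction s using Finset.induction_on with
  | empty => simpa using Rel.refl (B := B) (Fr := Fr) (X := X) (fun _ => (0 : ZMod 2))
  | insert i s hi ih =>
    simp only [Finset.sum_insert hi]
    exact (h i (mem_insert_self _ _)).add (ih fun j hj => h j (mem_insert_of_mem hj))

/-- The unit charge at `u`. -/
def unitC (u : BV) : BV → ZMod 2 := fun v => if v = u then 1 else 0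

lemma Rel.of_reach {u u' : BV} (h : (freeG B Fr X).Reachable u u') :
    Rel B Fr X (unitC u) (unitC u') := by
  obtain ⟨g, h1, h2⟩ := exists_flip B Fr h
  exact ⟨g, h1, h2⟩

lemma charge_eq (b : BV → ZMod 2) (v : BV) : b v = ∑ u, b u * unitC u v := by
  unfold unitC
  rw [Finset.sum_eq_single v]
  · simp
  · intro u _ hu
    rw [if_neg (Ne.symm hu), mul_zero]
  · intro h
    exact absurd (mem_univ v) h

/-- A charge can be moved to roots by reachability. -/
lemma Rel.move_all (b : BV → ZMod 2) (ρ : BV → BV)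
    (h : ∀ u, b u ≠ 0 → (freeG B Fr X).Reachable u (ρ u)) :
    Rel B Fr X b (fun v => ∑ u, b u * unitC (ρ u) v) := by
  have h1 : Rel B Fr X (fun v => ∑ u, b u * unitC u v) (fun v => ∑ u, b u * unitC (ρ u) v) := by
    apply Rel.sum
    intro u _
    by_cases hu : b u = 0
    · simp only [hu, zero_mul]
      exact Rel.refl _
    · exact Rel.smul _ (Rel.of_reach (h u hu))
  refine (Rel.of_eq fun v => ?_).trans h1
  exact charge_eq b v

end

end Vale.Agent.Lib.P310U
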