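import Vale.Agent.Lib.P310.Spoiler
import Vale.Agent.Lib.P310U.RDefs

set_option linter.unusedSectionVars false

namespace Vale.Agent.Lib.P310U

open Finset Vale.Agent.Lib.P310

section Generic

variable {BV Pr : Type} [Fintype BV] [DecidableEq BV] [Fintype Pr] [DecidableEq Pr]
variable {B : SimpleGraph BV} [DecidableRel B.Adj] {Fr : Pr → Finset (Sym2 BV)}
variable {d : ℕ} {t' : BV → ZMod 2}

/-- All letters of `F` are placed at their zero roots in `x`. -/
def Holds (x : Fin d → VT B Fr (fun _ => 0)) (F : Finset Pr) : Prop :=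
  ∀ p ∈ F, ∃ j, x j = zr (Sum.inr p)

open Classical in
/-- The value of edge `e` in `y`, read from a slot of `x` holding a zero root of a letter reading
`e`. -/
noncomputable def rd (x : Fin d → VT B Fr (fun _ => 0)) (y : Fin d → VT B Fr t')
    (e : Sym2 BV) : ZMod 2 :=
  if h : ∃ j p, x j = zr (Sum.inr p) ∧ e ∈ Fr p then ext (y h.choose).1.1 e else 0

lemma rd_eq (hd : 2 ≤ d) {r : ℕ} {x : Fin d → VT B Fr (fun _ => 0)} {y : Fin d → VT B Fr t'}
    (h : wlColor (vtGraph B Fr (fun _ => 0)) (r + 1) x = wlColor (vtGraph B Fr t') (r + 1) y)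
    {j : Fin d} {p : Pr} (hj : x j = zr (Sum.inr p)) {e : Sym2 BV} (he : e ∈ Fr p) :
    rd x y e = ext (y j).1.1 e := by
  classical
  unfold rd
  have hex : ∃ j p, x j = zr (Sum.inr p) ∧ e ∈ Fr p := ⟨j, p, hj, he⟩
  rw [dif_pos hex]
  obtain ⟨p', hp', he'⟩ := hex.choose_spec
  set j' := hex.choose
  by_cases hjj : x j = x j'
  · have := (atomic_of_eq h j j').1.mp hjj
    rw [this]
  · have hne : (Sum.inr p' : BV ⊕ Pr) ≠ Sum.inr p := by
      intro hpp
      apply hjj
      rw [hj, hp', hpp]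
    have hadj : (vtGraph B Fr (fun _ => 0)).Adj (x j') (x j) := by
      rw [hj, hp']
      exact zr_adj hne he' he
    have hadj' := (atomic_of_eq h j' j).2.mp hadj
    have r1 := slot_root hd h j (by rw [hj]; rfl)
    have r2 := slot_root hd h j' (by rw [hp']; rfl)
    refine roots_agree r2.1 r1.1 hadj' ?_ ?_
    · rw [r2.2, hp']
      exact he'
    · rw [r1.2, hj]
      exact he

variable {Dr : Type} [Fintype Dr] (ed : Dr → Sym2 BV)

/-- A linear equation on read values, valid for all pairs of `R`-equal tuples holding `F`. -/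
def LineG (t' : BV → ZMod 2) (d : ℕ) (cf : Dr → ZMod 2) (val : BV → ZMod 2) (F : Finset Pr)
    (R : ℕ) : Prop :=
  ∀ (x : Fin d → VT B Fr (fun _ => 0)) (y : Fin d → VT B Fr t'),
    wlColor (vtGraph B Fr (fun _ => 0)) R x = wlColor (vtGraph B Fr t') R y → Holds x F →
      ∑ δ, cf δ * rd x y (ed δ) = ∑ v, val v * t' v

variable {ed}

lemma LineG.mono_level {cf : Dr → ZMod 2} {val : BV → ZMod 2} {F : Finset Pr} {R R' : ℕ}
    (h : LineG (B := B) (Fr := Fr) ed t' d cf val F R) (hR : R ≤ R') :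
    LineG (B := B) (Fr := Fr) ed t' d cf val F R' :=
  fun x y hc hx => h x y (wlColor_eq_of_le hR hc) hx

lemma LineG.up {cf : Dr → ZMod 2} {val : BV → ZMod 2} {F F' : Finset Pr} {R : ℕ}
    (h : LineG (B := B) (Fr := Fr) ed t' d cf val F R) (hF : F ⊆ F') :
    LineG (B := B) (Fr := Fr) ed t' d cf val F' R :=
  fun x y hc hx => h x y hc fun p hp => hx p (hF hp)

lemma LineG.add {cf cf' : Dr → ZMod 2} {val val' : BV → ZMod 2} {F : Finset Pr} {R R' : ℕ}
    (h : LineG (B := B) (Fr := Fr) ed t' d cf val F R)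
    (h' : LineG (B := B) (Fr := Fr) ed t' d cf' val' F R') :
    LineG (B := B) (Fr := Fr) ed t' d (fun δ => cf δ + cf' δ) (fun v => val v + val' v) F
      (max R R') := by
  intro x y hc hx
  have h1 := h x y (wlColor_eq_of_le (le_max_left _ _) hc) hx
  have h2 := h' x y (wlColor_eq_of_le (le_max_right _ _) hc) hx
  simp only [add_mul, Finset.sum_add_distrib, h1, h2]

/-- Representatives of the letters of `F`. -/
lemma exists_reps (hd : 0 < d) {x : Fin d → VT B Fr (fun _ => 0)} {F : Finset Pr}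
    (hx : Holds x F) : ∃ rep : Pr → Fin d, ∀ q ∈ F, x (rep q) = zr (Sum.inr q) := by
  classical
  have : ∀ q, ∃ j : Fin d, q ∈ F → x j = zr (Sum.inr q) := by
    intro q
    by_cases hq : q ∈ F
    · obtain ⟨j, hj⟩ := hx q hq
      exact ⟨j, fun _ => hj⟩
    · exact ⟨⟨0, hd⟩, fun h => absurd h hq⟩
  choose rep hrep using this
  exact ⟨rep, fun q hq => hrep q hq⟩

/-- One letter can be forgotten if it is not needed to read the equation. -/
lemma LineG.down_step (hd : 2 ≤ d) {cf : Dr → ZMod 2} {val : BV → ZMod 2} {F : Finset Pr} {p : Pr}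
    {R : ℕ} (hcard : (insert p F).card ≤ d) (hcov : ∀ δ, cf δ ≠ 0 → ∃ q ∈ F, ed δ ∈ Fr q)
    (h : LineG (B := B) (Fr := Fr) ed t' d cf val (insert p F) R) :
    LineG (B := B) (Fr := Fr) ed t' d cf val F (R + 2) := by
  classical
  by_cases hp : p ∈ F
  · rw [insert_eq_of_mem hp] at h
    exact h.mono_level (by omega)
  intro x y hc hx
  rw [card_insert_of_notMem hp] at hcard
  obtain ⟨rep, hrep⟩ := exists_reps (by omega) hx
  have hlt : (F.image rep).card < (univ : Finset (Fin d)).card := by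
    have := card_image_le (s := F) (f := rep)
    simp only [card_univ, Fintype.card_fin]
    omega
  obtain ⟨i, -, hi⟩ := exists_mem_notMem_of_card_lt_card hlt
  obtain ⟨z, hz1, hz2, hz3, -⟩ := move_zr hd hc (Sum.inr p) i
  have hne : ∀ q ∈ F, rep q ≠ i := fun q hq he => hi (he ▸ mem_image_of_mem rep hq)
  have hH : Holds (Function.update x i (zr (Sum.inr p))) (insert p F) := by
    intro q hq
    rcases mem_insert.mp hq with rfl | hq
    · exact ⟨i, by simp⟩
    · exact ⟨rep q, by rw [Function.update_of_ne (hne q hq)]; exact hrep q hq⟩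
  have key := h _ _ (wlColor_eq_of_le (by omega) hz1) hH
  rw [← key]
  apply Finset.sum_congr rfl
  intro δ _
  by_cases hδ : cf δ = 0
  · rw [hδ, zero_mul, zero_mul]
  obtain ⟨q, hq, hqe⟩ := hcov δ hδ
  rw [rd_eq hd (r := R + 1) hc (hrep q hq) hqe,
    rd_eq hd hz1 (j := rep q) (p := q) (by rw [Function.update_of_ne (hne q hq)]; exact hrep q hq)
      hqe, Function.update_of_ne (hne q hq)]

/-- A tuple holding all letters of `F`. -/
lemma exists_holds (c₀ : BV ⊕ Pr) {F : Finset Pr} (hF : F.card ≤ d) :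
    ∃ x : Fin d → VT B Fr (fun _ => 0), Holds x F := by
  classical
  refine ⟨fun j => if h : j.val < F.card then zr (Sum.inr (F.equivFin.symm ⟨j.val, h⟩).1)
    else zr c₀, fun p hp => ?_⟩
  have hlt := (F.equivFin ⟨p, hp⟩).isLt
  refine ⟨⟨(F.equivFin ⟨p, hp⟩).val, by omega⟩, ?_⟩
  simp only
  rw [dif_pos hlt]
  simp

/-- An equation with empty left side and value 1 separates the graphs. -/
theorem not_wl_of_line (c₀ : BV ⊕ Pr) {cf : Dr → ZMod 2} {val : BV → ZMod 2} {F : Finset Pr}
    {R : ℕ} (hF : F.card ≤ d) (hcf : ∀ δ, cf δ = 0) (hv : ∑ v, val v * t' v = 1)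
    (h : LineG (B := B) (Fr := Fr) ed t' d cf val F R) :
    ¬ WLEquiv d (vtGraph B Fr (fun _ => 0)) (vtGraph B Fr t') := by
  intro hE
  obtain ⟨x, hx⟩ := exists_holds (B := B) (Fr := Fr) c₀ hF
  obtain ⟨y, hy⟩ := exists_of_wlEquiv hE R x
  have := h x y hy hx
  rw [hv] at this
  simp [hcf] at this

end Generic

end Vale.Agent.Lib.P310U
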