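import Vale.Agent.Lib.P310U.NoCase

set_option linter.unusedSectionVars false

namespace Vale.Agent.Lib.P310U

open Finset Vale.Agent.Lib.P310

lemma xor_of_sum : ∀ a b c : ZMod 2, a + b + c = 1 →
    xor (decide (a = 1)) (xor (decide (b = 1)) (decide (c = 1))) = true := by decide

lemma sum_of_xor : ∀ r0 r1 r2 : Bool, xor r0 (xor r1 r2) = true →
    (if r0 = true then (1 : ZMod 2) else 0) + (if r1 = true then 1 else 0) +
      (if r2 = true then 1 else 0) = 1 := by decide

lemma ite_decide_eq : ∀ a : ZMod 2, (if decide (a = 1) = true then (1 : ZMod 2) else 0) = a := by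
  decide

section

variable {I Cl Let : Type} [Fintype I] [DecidableEq I] [Fintype Cl] [DecidableEq Cl]
  [Fintype Let] [DecidableEq Let]
variable {g : ℕ} (gr : Cl → Gr) (co : Let → I) (cov : Cl → Let → Prop)
variable {K : Fin 3 → Finset Let → Prop} {T1 : Finset Let → Prop} {Kc : ℕ}

/-- The choice of the new parities. -/
lemma exists_q (M : Model gr co cov K T1 Kc) {FX FY : Finset Let} (hFX : FX ⊆ FY)
    (hRY : RegL co FY) (hcY : FY.card ≤ Kc + 3) {bar : Fin 3 → Prop}
    (hbar : ∀ τ τ', bar τ → bar τ' → τ = τ') {q : Fin 3 → ZMod 2} (hq : ∑ τ, q τ = 1)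
    (hold : RegL co FX → (SS gr cov 0 FX → (K 0 FX → q 0 = 1) ∧ (T1 FX → q 0 = 0)) ∧
      ∀ τ, τ ≠ 0 → SS gr cov τ FX → K τ FX → q τ = 0) :
    ∃ q' : Fin 3 → ZMod 2, ∑ τ, q' τ = 1 ∧ (RegL co FX → ∀ τ, SS gr cov τ FX → q' τ = q τ) ∧
      (SS gr cov 0 FY → (K 0 FY → q' 0 = 1) ∧ (T1 FY → q' 0 = 0)) ∧
      (∀ τ, τ ≠ 0 → SS gr cov τ FY → K τ FY → q' τ = 0) ∧
      (∀ τ, bar τ → Zc gr cov τ FY → q' τ = 0) := by
  classical
  rw [Fin.sum_univ_three] at hq
  have hCX : ∀ ρ, decide (RegL co FX ∧ Cv gr cov (Sum.inl ρ) FX) = true →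
      RegL co FX ∧ Cv gr cov (Sum.inl ρ) FX := fun ρ h => of_decide_eq_true h
  have hCY : ∀ ρ, decide (Cv gr cov (Sum.inl ρ) FY) = true → Cv gr cov (Sum.inl ρ) FY :=
    fun ρ h => of_decide_eq_true h
  have hAll : ∀ F : Finset Let, Cv gr cov (Sum.inl 0) F → Cv gr cov (Sum.inl 1) F →
      Cv gr cov (Sum.inl 2) F → ∀ ρ, Cv gr cov (Sum.inl ρ) F := by
    intro F h0 h1 h2 ρ
    fin_cases ρ
    · exact h0
    · exact h1
    · exact h2
  have hK : ∀ τ, decide (K τ FY) = true → K τ FY := fun τ h => of_decide_eq_true h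
  have hT : decide (T1 FY) = true → T1 FY := fun h => of_decide_eq_true h
  have hc : ∀ τ, decide (bar τ ∧ Zc gr cov τ FY) = true → bar τ ∧ Zc gr cov τ FY :=
    fun τ h => of_decide_eq_true h
  obtain ⟨r0, r1, r2, hx, a0, a1, a2, b0, b0', b1, b2, c0, c1, c2⟩ := choose_q
    (decide (RegL co FX ∧ Cv gr cov (Sum.inl 0) FX))
    (decide (RegL co FX ∧ Cv gr cov (Sum.inl 1) FX))
    (decide (RegL co FX ∧ Cv gr cov (Sum.inl 2) FX))
    (decide (Cv gr cov (Sum.inl 0) FY))
    (decide (Cv gr cov (Sum.inl 1) FY))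
    (decide (Cv gr cov (Sum.inl 2) FY))
    (decide (K 0 FY)) (decide (K 1 FY)) (decide (K 2 FY)) (decide (T1 FY))
    (decide (bar 0 ∧ Zc gr cov 0 FY)) (decide (bar 1 ∧ Zc gr cov 1 FY))
    (decide (bar 2 ∧ Zc gr cov 2 FY))
    (decide (q 0 = 1)) (decide (q 1 = 1)) (decide (q 2 = 1))
    (fun h => decide_eq_true ((hCX 0 h).2.mono gr cov hFX))
    (fun h => decide_eq_true ((hCX 1 h).2.mono gr cov hFX))
    (fun h => decide_eq_true ((hCX 2 h).2.mono gr cov hFX))
    (xor_of_sum _ _ _ hq)
    (fun h1 h2 h3 => by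
      have hR := (hCX 1 h1).1
      have hS := (ss_zero gr cov).mpr ⟨(hCX 1 h1).2, (hCX 2 h2).2⟩
      have := ((hold hR).1 hS).1 ((M.hm 0 _ _ hFX hR hcY hS).mpr (hK 0 h3))
      exact decide_eq_true this)
    (fun h1 h2 h3 => by
      have hR := (hCX 1 h1).1
      have hS := (ss_zero gr cov).mpr ⟨(hCX 1 h1).2, (hCX 2 h2).2⟩
      have := ((hold hR).1 hS).2 ((M.hmT _ _ hFX hR hcY hS).mpr (hT h3))
      rw [this]
      decide)
    (fun h1 h2 h3 => by
      have hR := (hCX 0 h1).1
      have hS := (ss_one gr cov).mpr ⟨(hCX 0 h1).2, (hCX 2 h2).2⟩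
      have := (hold hR).2 1 (by decide) hS ((M.hm 1 _ _ hFX hR hcY hS).mpr (hK 1 h3))
      rw [this]
      decide)
    (fun h1 h2 h3 => by
      have hR := (hCX 0 h1).1
      have hS := (ss_two gr cov).mpr ⟨(hCX 0 h1).2, (hCX 1 h2).2⟩
      have := (hold hR).2 2 (by decide) hS ((M.hm 2 _ _ hFX hR hcY hS).mpr (hK 2 h3))
      rw [this]
      decide)
    (fun h0 h1 h2 h3 h4 => decide_eq_true
      ((M.ht _ hRY hcY (hAll _ (hCY 0 h0) (hCY 1 h1) (hCY 2 h2))).1 (hK 1 h3) (hK 2 h4)))
    (fun h0 h1 h2 h3 h4 => decide_eq_true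
      ((M.ht _ hRY hcY (hAll _ (hCY 0 h0) (hCY 1 h1) (hCY 2 h2))).2.1 (hK 0 h3) (hK 1 h4)))
    (fun h0 h1 h2 h3 h4 => decide_eq_true
      ((M.ht _ hRY hcY (hAll _ (hCY 0 h0) (hCY 1 h1) (hCY 2 h2))).2.2.1 (hK 0 h3) (hK 2 h4)))
    (fun h0 h1 h2 h3 => by
      obtain ⟨e1, e2⟩ := (M.ht _ hRY hcY (hAll _ (hCY 0 h0) (hCY 1 h1) (hCY 2 h2))).2.2.2 (hT h3)
      exact ⟨decide_eq_false e1, decide_eq_false e2⟩)
    (fun h1 h2 h3 => decide_eq_false
      (M.ht0 _ hRY hcY ((ss_zero gr cov).mpr ⟨hCY 1 h1, hCY 2 h2⟩) (hT h3)))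
    (fun h h1 h2 => decide_eq_true
      (M.hs0 _ hRY hcY ((ss_zero gr cov).mpr ⟨hCY 1 h1, hCY 2 h2⟩) (hc 0 h).2))
    (fun h h1 h2 => decide_eq_true
      (M.hs 1 _ (by decide) hRY hcY ((ss_one gr cov).mpr ⟨hCY 0 h1, hCY 2 h2⟩) (hc 1 h).2))
    (fun h h1 h2 => decide_eq_true
      (M.hs 2 _ (by decide) hRY hcY ((ss_two gr cov).mpr ⟨hCY 0 h1, hCY 1 h2⟩) (hc 2 h).2))
    (fun h => by
      constructor
      · apply decide_eq_false
        intro h'
        exact absurd (hbar 0 1 (hc 0 h).1 h'.1) (by decide)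
      · apply decide_eq_false
        intro h'
        exact absurd (hbar 0 2 (hc 0 h).1 h'.1) (by decide))
    (fun h => by
      apply decide_eq_false
      intro h'
      exact absurd (hbar 1 2 (hc 1 h).1 h'.1) (by decide))
  refine ⟨![if r0 = true then 1 else 0, if r1 = true then 1 else 0, if r2 = true then 1 else 0],
    ?_, ?_, ?_, ?_, ?_⟩
  · rw [Fin.sum_univ_three]
    exact sum_of_xor _ _ _ hx
  · intro hR τ hS
    fin_cases τ
    · obtain ⟨h1, h2⟩ := (ss_zero gr cov).mp hS
      have := a0 (decide_eq_true ⟨hR, h1⟩) (decide_eq_true ⟨hR, h2⟩)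
      change (if r0 = true then (1 : ZMod 2) else 0) = q 0
      rw [this, ite_decide_eq]
    · obtain ⟨h1, h2⟩ := (ss_one gr cov).mp hS
      have := a1 (decide_eq_true ⟨hR, h1⟩) (decide_eq_true ⟨hR, h2⟩)
      change (if r1 = true then (1 : ZMod 2) else 0) = q 1
      rw [this, ite_decide_eq]
    · obtain ⟨h1, h2⟩ := (ss_two gr cov).mp hS
      have := a2 (decide_eq_true ⟨hR, h1⟩) (decide_eq_true ⟨hR, h2⟩)
      change (if r2 = true then (1 : ZMod 2) else 0) = q 2
      rw [this, ite_decide_eq]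
  · intro hS
    obtain ⟨h1, h2⟩ := (ss_zero gr cov).mp hS
    constructor
    · intro hk
      have := b0 (decide_eq_true h1) (decide_eq_true h2) (decide_eq_true hk)
      change (if r0 = true then (1 : ZMod 2) else 0) = 1
      rw [this]
      rfl
    · intro ht
      have := b0' (decide_eq_true h1) (decide_eq_true h2) (decide_eq_true ht)
      change (if r0 = true then (1 : ZMod 2) else 0) = 0
      rw [this]
      rfl
  · intro τ hτ hS hk
    fin_cases τ
    · exact absurd rfl hτ
    · obtain ⟨h1, h2⟩ := (ss_one gr cov).mp hS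
      have := b1 (decide_eq_true h1) (decide_eq_true h2) (decide_eq_true hk)
      change (if r1 = true then (1 : ZMod 2) else 0) = 0
      rw [this]
      rfl
    · obtain ⟨h1, h2⟩ := (ss_two gr cov).mp hS
      have := b2 (decide_eq_true h1) (decide_eq_true h2) (decide_eq_true hk)
      change (if r2 = true then (1 : ZMod 2) else 0) = 0
      rw [this]
      rfl
  · intro τ hb hz
    fin_cases τ
    · have := c0 (decide_eq_true ⟨hb, hz⟩)
      change (if r0 = true then (1 : ZMod 2) else 0) = 0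
      rw [this]
      rfl
    · have := c1 (decide_eq_true ⟨hb, hz⟩)
      change (if r1 = true then (1 : ZMod 2) else 0) = 0
      rw [this]
      rfl
    · have := c2 (decide_eq_true ⟨hb, hz⟩)
      change (if r2 = true then (1 : ZMod 2) else 0) = 0
      rw [this]
      rfl

/-- The step of the Duplicator. -/
theorem safe_step (M : Model gr co cov K T1 Kc) (hKc : Fintype.card I = Kc) (hg : Kc + 4 ≤ g)
    (i₀ : I) (κ₀ : Cl) (X : Finset (RV I Cl g ⊕ Let)) (b : RV I Cl g → ZMod 2)
    (hs : SafeR gr co cov K T1 Kc X b) (hX : X.card ≤ Kc + 2) (c : RV I Cl g ⊕ Let) :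
    ∃ b' : RV I Cl g → ZMod 2, SafeR gr co cov K T1 Kc (insert c X) b' ∧
      Rel (rb gr) (frL gr co cov) X b b' := by
  classical
  set Y := insert c X with hY
  have hXY : X ⊆ Y := subset_insert _ _
  have hYc : Y.card ≤ Kc + 3 := (card_insert_le _ _).trans (by omega)
  have hFX := toRight_mono (g := g) (Let := Let) hXY
  have hYL : Y.toLeft.card < g := by
    have := card_toLeft_add_card_toRight (u := Y)
    omega
  have hXL : X.toLeft.card < g := by
    have := card_toLeft_add_card_toRight (u := X)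
    omega
  have hYR : Y.toRight.card ≤ Kc + 3 := by
    have := card_toLeft_add_card_toRight (u := Y)
    omega
  by_cases hRY : RegL co Y.toRight
  · -- regular at Y
    have hT : Y.toLeft.card ≤ 3 := by
      have h1 := card_toLeft_add_card_toRight (u := Y)
      have h2 := hRY.card_le co
      omega
    obtain ⟨P, hP⟩ := exists_untP hT
    -- token locations
    have hloc : ∀ τ : Fin 3, ∃ w : RV I Cl g, w.1 = (τ, decide (Barrier Y (τ, false))) ∧
        IsSite Y w := by
      intro τ
      obtain ⟨a, ha⟩ := exists_unt hYL (τ, decide (Barrier Y (τ, false)))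
      exact ⟨((τ, decide (Barrier Y (τ, false))), colF a (Sum.inl 0, i₀), false), rfl, a,
        colF_inChunk a _, ha⟩
    choose w hw1 hw2 using hloc
    have hw3 : ∀ τ, (w τ).1.1 = τ := fun τ => by rw [hw1]
    have hbarU : ∀ τ τ', Barrier Y (τ, false) → Barrier Y (τ', false) → τ = τ' := by
      intro τ τ' h h'
      have := barrier_unique hT h h'
      exact congrArg Prod.fst this
    have hw4 : ∀ τ, ¬ Barrier Y (w τ).1 := by
      intro τ hb
      rw [hw1] at hb
      by_cases hB : Barrier Y (τ, false)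
      · have e := barrier_unique hT hb hB
        simp only [hB, decide_true, Prod.mk.injEq, true_and] at e
        exact absurd e (by simp)
      · simp only [hB, decide_false] at hb
    have hq0 : ∑ τ, qr b τ = 1 := by rw [sum_qr]; exact hs.total
    obtain ⟨q', hq1, hq2, hq3, hq4, hq5⟩ := exists_q gr co cov M hFX hRY hYR
      (bar := fun τ => Barrier Y (τ, false)) hbarU hq0
      (fun hR => ⟨hs.rule0 hR, hs.rule hR⟩)
    have hqq : ∀ τ, qr (chargeOf q' w) τ = q' τ := qr_chargeOf q' hw3
    have hS' : SafeR gr co cov K T1 Kc Y (chargeOf q' w) := by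
      refine ⟨hYc, (chargeOf_total q' w).trans hq1, ?_, ?_, ?_, ?_, ?_⟩
      · intro v hv
        obtain ⟨τ, -, rfl⟩ := chargeOf_support hv
        exact hw2 τ
      · intro _ v hv
        obtain ⟨τ, -, rfl⟩ := chargeOf_support hv
        exact hw4 τ
      · intro _ v hv hp hz
        obtain ⟨τ, hτ, rfl⟩ := chargeOf_support hv
        rw [hw1] at hp hz
        have hB : Barrier Y (τ, false) := by simpa using hp
        exact hτ (hq5 τ hB hz)
      · intro _ hS
        obtain ⟨h1, h2⟩ := hq3 hS
        rw [hqq]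
        exact ⟨h1, h2⟩
      · intro _ τ hτ hS hK
        rw [hqq]
        exact hq4 τ hτ hS hK
    refine ⟨chargeOf q' w, hS', ?_⟩
    by_cases hRX : RegL co X.toRight
    · -- both regular: through the roots
      have hPX := hP.mono hXY
      have R1 : Rel (rb gr) (frL gr co cov) X b (chargeOf (qr b) (rootH P κ₀)) := by
        refine (Rel.move_all b (fun u => rootH P κ₀ u.1.1) fun u hu => ?_).trans
          (Rel.of_eq fun v => charge_group b _ v)
        exact reach_root gr co cov hPX κ₀ (hs.sites u hu).notMem (hs.nobar hRX u hu)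
          (hs.partner hRX u hu)
      have R2 : Rel (rb gr) (frL gr co cov) X (chargeOf q' w) (chargeOf q' (rootH P κ₀)) := by
        apply Rel.sum
        intro τ _
        by_cases hτ : q' τ = 0
        · simp only [hτ, zero_mul]
          exact Rel.refl _
        · apply Rel.smul
          apply Rel.of_reach
          have h1 : (Sum.inl (w τ) : RV I Cl g ⊕ Let) ∉ X := fun h => (hw2 τ).notMem (hXY h)
          have h2 : ¬ Barrier X (w τ).1 := fun h => hw4 τ (h.mono hXY)
          have h3 : (w τ).1.2 = true → ¬ Cv gr cov (Sum.inr (w τ).1.1) X.toRight := by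
            intro hp hz
            rw [hw1] at hp hz
            have hB : Barrier Y (τ, false) := by simpa using hp
            exact hτ (hq5 τ hB (Cv.mono gr cov hFX hz))
          have := reach_root gr co cov hPX κ₀ h1 h2 h3
          rwa [hw3] at this
      exact R1.trans ((rel_roots gr co cov hPX κ₀ hq0 hq1 (hq2 hRX)).trans R2.symm)
    · -- a missing coordinate at X
      unfold RegL at hRX
      push Not at hRX
      obtain ⟨i, hi⟩ := hRX
      refine rel_of_missing gr co cov (i := i) (fun l hl => hi l (mem_toRight.mpr hl)) hXL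
        hs.total hS'.total hs.sites fun v hv => (hS'.sites v hv).mono hXY
  · -- a missing coordinate at Y
    unfold RegL at hRY
    push Not at hRY
    obtain ⟨i, hi⟩ := hRY
    obtain ⟨a, ha⟩ := exists_unt hYL (0, false)
    let R0 : RV I Cl g := ((0, false), colF a (Sum.inl 0, i), false)
    have hR0 : IsSite Y R0 := ⟨a, colF_inChunk a _, ha⟩
    have hsup : ∀ v, unitC R0 v ≠ 0 → v = R0 := by
      intro v hv
      unfold unitC at hv
      by_contra h
      exact hv (if_neg h)
    have hS' : SafeR gr co cov K T1 Kc Y (unitC R0) := by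
      refine ⟨hYc, sum_unitC R0, ?_, ?_, ?_, ?_, ?_⟩
      · intro v hv
        rw [hsup v hv]
        exact hR0
      · intro hR
        exact absurd hR (fun h => by
          obtain ⟨l, hl, hc⟩ := h i
          exact hi l hl hc)
      · intro hR
        exact absurd hR (fun h => by
          obtain ⟨l, hl, hc⟩ := h i
          exact hi l hl hc)
      · intro hR
        exact absurd hR (fun h => by
          obtain ⟨l, hl, hc⟩ := h i
          exact hi l hl hc)
      · intro hR
        exact absurd hR (fun h => by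
          obtain ⟨l, hl, hc⟩ := h i
          exact hi l hl hc)
    refine ⟨unitC R0, hS', ?_⟩
    exact rel_of_missing gr co cov (i := i) (fun l hl => hi l (hFX (mem_toRight.mpr hl))) hXL
      hs.total hS'.total hs.sites fun v hv => (hS'.sites v hv).mono hXY

/-- The no case: a model makes the two graphs WL equivalent. -/
theorem no_case_R (M : Model gr co cov K T1 Kc) (hKc : Fintype.card I = Kc) (hKc2 : 2 ≤ Kc)
    (hg : Kc + 4 ≤ g) (i₀ : I) (κ₀ : Cl) (l₀ : Let) :
    WLEquiv (Kc + 2) (vtGraph (rb (I := I) (g := g) gr) (frL gr co cov) (fun _ => 0))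
      (vtGraph (rb (I := I) (g := g) gr) (frL gr co cov) twistR) := by
  classical
  let B := rb (I := I) (g := g) gr
  let Fr := frL (g := g) gr co cov
  have hφ : 0 < Fintype.card (Gr × I) := Fintype.card_pos_iff.mpr ⟨(Sum.inl 0, i₀)⟩
  have hg0 : 0 < g := by omega
  have hℓ : 0 < g * Fintype.card (Gr × I) + 4 * Fintype.card Cl := by
    have := Nat.mul_pos hg0 hφ
    omega
  let v₀ : RV I Cl g := ((0, false), ⟨0, hℓ⟩, false)
  have htw : ∀ v, twistR v = unitC v₀ v := by
    rintro ⟨r, c, l⟩
    unfold twistR unitC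
    have : (r = (0, false) ∧ c.val = 0 ∧ l = false) ↔ (r, c, l) = v₀ := by
      simp only [v₀, Prod.mk.injEq, Fin.ext_iff]
    simp only [this]
  let a₀ : Node B Fr × Fin (pendMax B Fr + 1) := (⟨Sum.inr l₀, fun _ => 0⟩, 0)
  have ha₀ : ∀ t, vtOK B Fr t a₀ := fun t => ⟨trivial, by simp [a₀]⟩
  let x₀ : Fin (Kc + 2) → VT B Fr (fun _ => 0) := fun _ => ⟨a₀, ha₀ _⟩
  let y₀ : Fin (Kc + 2) → VT B Fr twistR := fun _ => ⟨a₀, ha₀ _⟩
  refine wlEquiv_of_start x₀ y₀ fun r => ?_
  refine dup_charge (SafeR gr co cov K T1 Kc) _ _ ?_ ?_ ?_ r x₀ y₀ (fun _ => 0) (unitC v₀) ?_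
  · intro X b hb v hv
    by_contra hne
    exact (hb.sites v hne).notMem hv
  · intro X X' b hsub hb
    exact hb.mono gr co cov M hsub
  · intro X b hb hc c
    obtain ⟨b', h1, g', h2, h3⟩ := safe_step gr co cov M hKc hg i₀ κ₀ X b hb hc c
    exact ⟨b', g', h1, h2, h3⟩
  · refine ⟨?_, ?_, ?_⟩
    · intro j
      apply Prod.ext
      · change a₀.1 = ⟨a₀.1.1, fun e => a₀.1.2 e + 0⟩
        simp only [add_zero]
      · rfl
    · intro v
      rw [htw]
      have : bd B (fun _ => (0 : ZMod 2)) v = 0 := by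
        unfold bd
        simp
      rw [this]
      simp
    · have hcls : clsT x₀ ⊆ {Sum.inr l₀} := by
        intro c hc
        unfold clsT at hc
        obtain ⟨j, -, rfl⟩ := mem_image.mp hc
        simp [x₀, a₀]
      have hL : (clsT x₀).toLeft = ∅ := by
        ext v
        simp only [mem_toLeft, notMem_empty, iff_false]
        intro hv
        have := hcls hv
        simp at this
      have hnotR : ¬ RegL co (clsT x₀).toRight := by
        intro hR
        have h1 := hR.card_le co
        have h2 : (clsT x₀).toRight.card ≤ 1 := by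
          have : (clsT x₀).toRight ⊆ {l₀} := by
            intro l hl
            have := hcls (mem_toRight.mp hl)
            simpa using this
          exact (card_le_card this).trans (by simp)
        omega
      -- the chunk of column 0 is free of pebbles
      have hsite : IsSite (clsT x₀) v₀ := by
        have h0 : 0 < (⟨0, hg0⟩ : Fin g).val + 1 := by simp
        refine ⟨⟨0, hg0⟩, ⟨by simp [v₀], ?_⟩, fun c j _ hm => ?_⟩
        · simp only [v₀, zero_add, one_mul]
          exact hφ
        · have := hcls hm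
          simp at this
      refine ⟨?_, sum_unitC v₀, ?_, fun h => absurd h hnotR, fun h => absurd h hnotR,
        fun h => absurd h hnotR, fun h => absurd h hnotR⟩
      · exact (card_le_card hcls).trans (by simp)
      · intro v hv
        have : v = v₀ := by
          by_contra h
          exact hv (if_neg h)
        rw [this]
        exact hsite

end

end Vale.Agent.Lib.P310U
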