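import Vale.Agent.Lib.P310U.CADefs

/-!
Deterministic single-tape Turing machines with a two-way infinite tape, and the graphs obtained from
a machine and an input.

`DTM Q Γ` has states `Q`, tape symbols `Γ`, transition function `δ`, a start state, an accepting
state and a blank symbol.  A machine accepts `x : Fin n → Γ` within `T` steps if it is in the accepting
state after fewer than `T` steps, started in state `start` at position 0 on the tape with `x` at
positions `0, …, n - 1` and blanks elsewhere.
-/

namespace Vale.Agent.Lib.P310U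

open Finset Vale.Agent.Lib.P310

/-- A deterministic single-tape Turing machine: `δ q a = (q', a', right)`. -/
structure DTM (Q Γ : Type) where
  δ : Q → Γ → Q × Γ × Bool
  start : Q
  acc : Q
  blank : Γ

/-- A configuration: state, tape contents and head position. -/
structure TConf (Q Γ : Type) where
  st : Q
  tape : ℤ → Γ
  pos : ℤ

namespace DTM

variable {Q Γ : Type} (M : DTM Q Γ)

/-- One step of the machine. -/
def step (c : TConf Q Γ) : TConf Q Γ :=
  let r := M.δ c.st (c.tape c.pos)
  ⟨r.1, Function.update c.tape c.pos r.2.1, if r.2.2 then c.pos + 1 else c.pos - 1⟩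

/-- The initial configuration on input `x`. -/
def init {n : ℕ} (x : Fin n → Γ) : TConf Q Γ :=
  ⟨M.start, fun p => if h : 0 ≤ p ∧ p < n then x ⟨p.toNat, by omega⟩ else M.blank, 0⟩

/-- The configuration after `t` steps. -/
def run {n : ℕ} (x : Fin n → Γ) (t : ℕ) : TConf Q Γ := (M.step)^[t] (M.init x)

/-- The machine reaches the accepting state in fewer than `T` steps. -/
def AcceptsWithin {n : ℕ} (x : Fin n → Γ) (T : ℕ) : Prop :=
  ∃ t, t < T ∧ (M.run x t).st = M.acc

/-- The alphabet of the tableau: a tape symbol and possibly the state of the head. -/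
abbrev TSg (Q Γ : Type) : Type := Γ × Option Q

/-- The state arriving from the left neighbor. -/
def fromL (a : TSg Q Γ) : Option Q :=
  a.2.bind fun q => if (M.δ q a.1).2.2 = true then some (M.δ q a.1).1 else none

/-- The state arriving from the right neighbor. -/
def fromR (c : TSg Q Γ) : Option Q :=
  c.2.bind fun q => if (M.δ q c.1).2.2 = true then none else some (M.δ q c.1).1

/-- The next letter of a cell, from the letters of the cell and its two neighbors. -/
def caRule (a b c : TSg Q Γ) : TSg Q Γ :=
  (match b.2 with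
    | some q => (M.δ q b.1).2.1
    | none => b.1,
   (M.fromL a).orElse fun _ => M.fromR c)

/-- The input row of the tableau, given on the first `n` cells. -/
def xinC {n : ℕ} (x : Fin n → Γ) : Fin n → TSg Q Γ :=
  fun d => (x d, if d.val = 0 then some M.start else none)

/-- The blank cell. -/
def blC : TSg Q Γ := (M.blank, none)

/-- A cell carrying the head in the accepting state. -/
def accC (s : TSg Q Γ) : Prop := s.2 = some M.acc

end DTM

variable {Q Γ : Type} [Fintype Q] [DecidableEq Q] [Fintype Γ] [DecidableEq Γ]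

/-- The string length parameter of the graphs of exponent `L`. -/
abbrev tmN (L : ℕ) : ℕ := L + L + 1

/-- The number of padding coordinates for dimension `d`. -/
abbrev tmP (L d : ℕ) : ℕ := d - (32 * L + 34)

/-- Number of bits of a string letter. -/
noncomputable def tmBL (Q Γ : Type) [Fintype Q] [Fintype Γ] (n : ℕ) : ℕ :=
  Nat.clog 2 (Fintype.card (LamC (DTM.TSg Q Γ) n))

/-- Number of bits of a tag. -/
noncomputable def tmBS (Q Γ : Type) [Fintype Q] [Fintype Γ] (L : ℕ) : ℕ :=
  Nat.clog 2 (Fintype.card (Tag (DTM.TSg Q Γ) L L))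

/-- The coordinates of the string system. -/
abbrev tmI (L d : ℕ) : Type := SCo (tmN L) (tmP L d)

/-- The clauses of the string system. -/
abbrev tmC (Q Γ : Type) [Fintype Q] [Fintype Γ] (n L : ℕ) : Type :=
  SCl (tmN L) (tmBL Q Γ n) (tmBS Q Γ L)

/-- The letters of the string system. -/
def tmLt (Q Γ : Type) (n L d : ℕ) : Type :=
  SLet (LamC (DTM.TSg Q Γ) n) (Tag (DTM.TSg Q Γ) L L) (tmN L) (tmP L d)

noncomputable instance (n L d : ℕ) : Fintype (tmLt Q Γ n L d) :=
  inferInstanceAs (Fintype (SLet (LamC (DTM.TSg Q Γ) n) (Tag (DTM.TSg Q Γ) L L) (tmN L) (tmP L d)))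

noncomputable instance (n L d : ℕ) : DecidableEq (tmLt Q Γ n L d) :=
  inferInstanceAs (DecidableEq (SLet (LamC (DTM.TSg Q Γ) n) (Tag (DTM.TSg Q Γ) L L) (tmN L) (tmP L d)))

/-- The base vertices of the graphs of a machine. -/
def tmRV (Q Γ : Type) [Fintype Q] [Fintype Γ] (n L d : ℕ) : Type :=
  RV (tmI L d) (tmC Q Γ n L) (d + 2)

noncomputable instance (n L d : ℕ) : Fintype (tmRV Q Γ n L d) :=
  inferInstanceAs (Fintype (RV (tmI L d) (tmC Q Γ n L) (d + 2)))

noncomputable instance (n L d : ℕ) : DecidableEq (tmRV Q Γ n L d) :=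
  inferInstanceAs (DecidableEq (RV (tmI L d) (tmC Q Γ n L) (d + 2)))

/-- The base graph of the graphs of a machine: `tmP L d` padding coordinates and `d + 2` chunks. -/
noncomputable def tmBase (Q Γ : Type) [Fintype Q] [Fintype Γ] (n L d : ℕ) :
    SimpleGraph (tmRV Q Γ n L d) :=
  rb (I := tmI L d) (g := d + 2) (grS (N := tmN L) (bL := tmBL Q Γ n) (bS := tmBS Q Γ L))

noncomputable instance (n L d : ℕ) : DecidableRel (tmBase Q Γ n L d).Adj := Classical.decRel _

/-- The coverage relation of the string system of a machine on an input. -/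
noncomputable def tmCov (M : DTM Q Γ) {n : ℕ} (x : Fin n → Γ) (L d : ℕ) :
    tmC Q Γ n L → tmLt Q Γ n L d → Prop :=
  covS (binEnc _ _) (binEnc _ _) (LocC M.caRule (M.xinC x) M.blC M.accC) isOKC

/-- The edge sets of the letters of the string system of a machine on an input. -/
noncomputable def tmFr (M : DTM Q Γ) {n : ℕ} (x : Fin n → Γ) (L d : ℕ) :
    tmLt Q Γ n L d → Finset (Sym2 (tmRV Q Γ n L d)) :=
  frL grS coS (tmCov M x L d)

/-- The vertex type of the graph of a machine with parity function `t`. -/
def tmV (M : DTM Q Γ) {n : ℕ} (x : Fin n → Γ) (L d : ℕ) (t : tmRV Q Γ n L d → ZMod 2) : Type :=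
  VT (tmBase Q Γ n L d) (tmFr M x L d) t

noncomputable instance (M : DTM Q Γ) {n : ℕ} (x : Fin n → Γ) (L d : ℕ)
    (t : tmRV Q Γ n L d → ZMod 2) : Fintype (tmV M x L d t) :=
  inferInstanceAs (Fintype (VT (tmBase Q Γ n L d) (tmFr M x L d) t))

/-- The parity function with a single 1. -/
noncomputable def tmT (Q Γ : Type) [Fintype Q] [Fintype Γ] (n L d : ℕ) : tmRV Q Γ n L d → ZMod 2 := twistR

/-- The untwisted graph of a machine on an input. -/
noncomputable def tmG (M : DTM Q Γ) {n : ℕ} (x : Fin n → Γ) (L d : ℕ) :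
    SimpleGraph (tmV M x L d (fun _ => 0)) :=
  vtGraph (tmBase Q Γ n L d) (tmFr M x L d) (fun _ => 0)

/-- The twisted graph of a machine on an input. -/
noncomputable def tmH (M : DTM Q Γ) {n : ℕ} (x : Fin n → Γ) (L d : ℕ) :
    SimpleGraph (tmV M x L d (tmT Q Γ n L d)) :=
  vtGraph (tmBase Q Γ n L d) (tmFr M x L d) (tmT Q Γ n L d)

end Vale.Agent.Lib.P310U
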