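import Vale.Agent.Lib.P310U.TMSim

set_option linter.unusedSectionVars false

namespace Vale.Agent.Lib.P310U

open Finset Vale.Agent.Lib.P310

lemma binEnc_injective (α : Type) [Fintype α] {b : ℕ} (h : Fintype.card α ≤ 2 ^ b) :
    Function.Injective (binEnc α b) := by
  intro a a' e
  apply (Fintype.equivFin α).injective
  apply Fin.ext
  apply Nat.eq_of_testBit_eq
  intro i
  by_cases hi : i < b
  · exact congrFun e ⟨i, hi⟩
  · have h1 : (Fintype.equivFin α a).val < 2 ^ i :=
      lt_of_lt_of_le (Fin.isLt _) (h.trans (Nat.pow_le_pow_right (by omega) (by omega)))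
    have h2 : (Fintype.equivFin α a').val < 2 ^ i :=
      lt_of_lt_of_le (Fin.isLt _) (h.trans (Nat.pow_le_pow_right (by omega) (by omega)))
    rw [Nat.testBit_lt_two_pow h1, Nat.testBit_lt_two_pow h2]

lemma binEnc_clog_injective (α : Type) [Fintype α] :
    Function.Injective (binEnc α (Nat.clog 2 (Fintype.card α))) :=
  binEnc_injective α (Nat.le_pow_clog (by omega) _)

section

variable {Q Γ : Type} [Fintype Q] [DecidableEq Q] [Fintype Γ] [DecidableEq Γ]

/-- The two graphs of a machine on an input are WL-equivalent exactly when the machine does not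
accept within `n ^ L` steps. -/
theorem tm_wl_iff (M : DTM Q Γ) {n L d : ℕ} (hn : 3 ≤ n) (hL : 1 ≤ L) (hd : 32 * L + 34 ≤ d)
    (x : Fin n → Γ) :
    WLEquiv d (tmG M x L d) (tmH M x L d) ↔ ¬ M.AcceptsWithin x (n ^ L) := by
  have hc : Fintype.card (SCo (tmN L) (tmP L d)) = d - 2 := by
    rw [card_SCo]
    have e0 : tmN L = L + L + 1 := rfl
    have e1 : tmP L d = d - (32 * L + 34) := rfl
    omega
  have h := ca_iff (Δ := M.caRule) (xin := M.xinC x) (bl := M.blC) (acc := M.accC)
    (C := M.tab x L) (pad := tmP L d) (g := d + 2)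
    (binEnc _ (tmBL Q Γ n)) (binEnc _ (tmBS Q Γ L))
    (binEnc_clog_injective _) (binEnc_clog_injective _) (by rw [hc]; omega)
    (fun p => tab_init M hn hL x p) (fun t ht p => tab_rule M hn x t ht p) (Sum.inr Hd.kap)
  have e : Fintype.card (SCo (tmN L) (tmP L d)) + 2 = d := by
    rw [hc]
    omega
  rw [e, tab_acc M hn x] at h
  exact h

end

end Vale.Agent.Lib.P310U
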