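import Vale.Agent.Lib.P310U.TMSize

set_option linter.unusedSectionVars false

namespace Vale.Agent.Lib.P310U

open Finset Vale.Agent.Lib.P310

section Cov

variable {Λ St : Type} [DecidableEq Λ] [DecidableEq St] {N pad bL bS : ℕ}
variable (enc : Λ → Fin bL → Bool) (encS : St → Fin bS → Bool)
  (Loc : Fin (N + 1) → Λ → Λ → Λ → St → St → Prop) (isOK : Fin 3 → Λ → Prop)

/-- A letter covers few clauses. -/
lemma card_cov_le (l : SLet Λ St N pad) (S : Finset (SCl N bL bS))
    (hS : ∀ κ ∈ S, covS (pad := pad) enc encS Loc isOK κ l) :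
    S.card ≤ 18 * bL + 4 * bS + 4 := by
  classical
  rcases l with ⟨τ, j, l₀, a, f⟩ | ⟨j, l₀, c, u, u', m⟩ | ⟨i⟩
  · let T1 : Finset (SCl N bL bS) := (univ : Finset (Fin 4 × Fin bL × Bool)).image
      fun z => SCl.cq τ j z.1 l₀ z.2.1 z.2.2
    let T2 : Finset (SCl N bL bS) := (univ : Finset (Fin 4 × Fin bL × Bool)).image
      fun z => SCl.cq τ z.1 j l₀ z.2.1 z.2.2
    let T3 : Finset (SCl N bL bS) := (univ : Finset (Fin bL × Bool)).image
      fun z => SCl.rl τ j l₀ z.1 z.2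
    have hsub : S ⊆ T1 ∪ T2 ∪ T3 ∪ {SCl.fl τ j l₀, SCl.zc τ j} := by
      intro κ hκ
      have h := hS κ hκ
      rcases κ with ⟨τ', j1, j2, l', bit, x⟩ | ⟨τ', j1, l'⟩ | ⟨τ', j1, l', bit, x⟩ | ⟨j1, l'⟩ |
        ⟨j1, l', bit, x⟩ | ⟨j1, l'⟩ | ⟨j1, l'⟩ | ⟨τ', j1⟩
      · simp only [covS, covF, covW] at h
        obtain ⟨rfl, rfl, h | h⟩ := h
        · obtain ⟨rfl, -⟩ := h
          refine mem_union_left _ (mem_union_left _ (mem_union_left _ ?_))
          exact mem_image.mpr ⟨(j2, bit, x), mem_univ _, rfl⟩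
        · obtain ⟨rfl, -⟩ := h
          refine mem_union_left _ (mem_union_left _ (mem_union_right _ ?_))
          exact mem_image.mpr ⟨(j1, bit, x), mem_univ _, rfl⟩
      · simp only [covS, covF, covW] at h
        obtain ⟨rfl, rfl, rfl, -⟩ := h
        simp
      · simp only [covS, covF, covW] at h
        obtain ⟨rfl, rfl, rfl, -⟩ := h
        refine mem_union_left _ (mem_union_right _ ?_)
        exact mem_image.mpr ⟨(bit, x), mem_univ _, rfl⟩
      · simp only [covS, covF, covW] at h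
      · simp only [covS, covF, covW] at h
      · simp only [covS, covF, covW] at h
      · simp only [covS, covF, covW] at h
      · simp only [covS, covF, covW] at h
        obtain ⟨rfl, rfl, -⟩ := h
        simp
    have h1 : T1.card ≤ 8 * bL := by
      refine card_image_le.trans ?_
      simp only [card_univ, Fintype.card_prod, Fintype.card_fin, Fintype.card_bool]
      nlinarith
    have h2 : T2.card ≤ 8 * bL := by
      refine card_image_le.trans ?_
      simp only [card_univ, Fintype.card_prod, Fintype.card_fin, Fintype.card_bool]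
      nlinarith
    have h3 : T3.card ≤ 2 * bL := by
      refine card_image_le.trans ?_
      simp only [card_univ, Fintype.card_prod, Fintype.card_fin, Fintype.card_bool]
      nlinarith
    have h4 : ({SCl.fl τ j l₀, SCl.zc τ j} : Finset (SCl N bL bS)).card ≤ 2 := card_le_two
    have h5 := card_union_le (T1 ∪ T2 ∪ T3) {SCl.fl τ j l₀, SCl.zc τ j}
    have h6 := card_union_le (T1 ∪ T2) T3
    have h7 := card_union_le T1 T2
    have := card_le_card hsub
    omega
  · let T1 : Finset (SCl N bL bS) := (univ : Finset (Fin 3 × Fin bL × Bool)).image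
      fun z => SCl.rl z.1 j l₀ z.2.1 z.2.2
    let A1 : Finset (Fin N) := univ.filter fun l' => l'.castSucc = l₀
    let A2 : Finset (Fin N) := univ.filter fun l' => l'.succ = l₀
    let T2 : Finset (SCl N bL bS) := ((A1 ∪ A2) ×ˢ (univ : Finset (Fin bS × Bool))).image
      fun z => SCl.ad j z.1 z.2.1 z.2.2
    have hsub : S ⊆ T1 ∪ T2 ∪ {SCl.vl j l₀, SCl.dc j l₀, SCl.ec j l₀} := by
      intro κ hκ
      have h := hS κ hκ
      rcases κ with ⟨τ', j1, j2, l', bit, x⟩ | ⟨τ', j1, l'⟩ | ⟨τ', j1, l', bit, x⟩ | ⟨j1, l'⟩ |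
        ⟨j1, l', bit, x⟩ | ⟨j1, l'⟩ | ⟨j1, l'⟩ | ⟨τ', j1⟩
      · simp only [covS, covF, covW] at h
      · simp only [covS, covF, covW] at h
      · simp only [covS, covF, covW] at h
        obtain ⟨rfl, rfl, -⟩ := h
        refine mem_union_left _ (mem_union_left _ ?_)
        exact mem_image.mpr ⟨(τ', bit, x), mem_univ _, rfl⟩
      · simp only [covS, covF, covW] at h
        obtain ⟨rfl, rfl, -⟩ := h
        simp
      · simp only [covS, covF, covW] at h
        obtain ⟨rfl, h⟩ := h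
        refine mem_union_left _ (mem_union_right _ ?_)
        refine mem_image.mpr ⟨(l', bit, x), ?_, rfl⟩
        simp only [mem_product, mem_univ, and_true, mem_union, A1, A2, mem_filter, true_and]
        rcases h with ⟨h, -⟩ | ⟨h, -⟩
        · exact Or.inl h.symm
        · exact Or.inr h.symm
      · simp only [covS, covF, covW] at h
        obtain ⟨rfl, rfl, -⟩ := h
        simp
      · simp only [covS, covF, covW] at h
        obtain ⟨rfl, rfl, -⟩ := h
        simp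
      · simp only [covS, covF, covW] at h
    have h1 : T1.card ≤ 6 * bL := by
      refine card_image_le.trans ?_
      simp only [card_univ, Fintype.card_prod, Fintype.card_fin, Fintype.card_bool]
      nlinarith
    have hA1 : A1.card ≤ 1 := by
      rw [Finset.card_le_one]
      intro a ha b hb
      simp only [A1, mem_filter, mem_univ, true_and] at ha hb
      exact Fin.castSucc_injective _ (ha.trans hb.symm)
    have hA2 : A2.card ≤ 1 := by
      rw [Finset.card_le_one]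
      intro a ha b hb
      simp only [A2, mem_filter, mem_univ, true_and] at ha hb
      exact Fin.succ_injective _ (ha.trans hb.symm)
    have hA := card_union_le A1 A2
    have h2 : T2.card ≤ 4 * bS := by
      refine card_image_le.trans ?_
      rw [card_product]
      simp only [card_univ, Fintype.card_prod, Fintype.card_fin, Fintype.card_bool]
      have : (A1 ∪ A2).card ≤ 2 := by omega
      nlinarith
    have h4 : ({SCl.vl j l₀, SCl.dc j l₀, SCl.ec j l₀} : Finset (SCl N bL bS)).card ≤ 3 :=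
      card_le_three
    have h5 := card_union_le (T1 ∪ T2) {SCl.vl j l₀, SCl.dc j l₀, SCl.ec j l₀}
    have h6 := card_union_le T1 T2
    have := card_le_card hsub
    omega
  · have : S = ∅ := by
      rw [Finset.eq_empty_iff_forall_notMem]
      intro κ hκ
      have h := hS κ hκ
      rcases κ with ⟨τ', j1, j2, l', bit, x⟩ | ⟨τ', j1, l'⟩ | ⟨τ', j1, l', bit, x⟩ | ⟨j1, l'⟩ |
        ⟨j1, l', bit, x⟩ | ⟨j1, l'⟩ | ⟨j1, l'⟩ | ⟨τ', j1⟩ <;> simp only [covS, covF, covW] at h
    rw [this]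
    simp

lemma card_SLet [Fintype Λ] [Fintype St] : Fintype.card (SLet Λ St N pad) =
    3 * 4 * (N + 1) * Fintype.card Λ * 2 +
      4 * (N + 1) * Fintype.card Λ ^ 3 * Fintype.card St ^ 2 * 3 + pad := by
  rw [Fintype.card_congr SLet.equiv]
  simp only [Fintype.card_sum, Fintype.card_prod, Fintype.card_fin, Fintype.card_bool,
    Fintype.card_fun]
  ring

lemma card_SCl : Fintype.card (SCl N bL bS) =
    3 * 4 * 4 * (N + 1) * bL * 2 + 3 * 4 * (N + 1) + 3 * 4 * (N + 1) * bL * 2 + 4 * (N + 1) +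
      4 * N * bS * 2 + 4 * (N + 1) + 4 * (N + 1) + 3 * 4 := by
  rw [Fintype.card_congr SCl.equiv]
  simp only [Fintype.card_sum, Fintype.card_prod, Fintype.card_fin, Fintype.card_bool]
  ring

end Cov

/-- Polynomial bounds with constants: `f n ≤ K * n ^ j` for all `n ≥ 1`. -/
def PB (f : ℕ → ℕ) (j : ℕ) : Prop := ∃ K, ∀ n, 1 ≤ n → f n ≤ K * n ^ j

lemma PB.const (c : ℕ) (j : ℕ) : PB (fun _ => c) j :=
  ⟨c, fun n hn => by
    calc c = c * 1 := (mul_one c).symm
      _ ≤ c * n ^ j := Nat.mul_le_mul_left _ (Nat.one_le_pow _ _ hn)⟩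

lemma PB.id : PB (fun n => n) 1 := ⟨1, fun n _ => by simp⟩

lemma PB.mono {f : ℕ → ℕ} {j j' : ℕ} (h : PB f j) (hj : j ≤ j') : PB f j' := by
  obtain ⟨K, hK⟩ := h
  exact ⟨K, fun n hn => (hK n hn).trans
    (Nat.mul_le_mul_left _ (Nat.pow_le_pow_right hn hj))⟩

lemma PB.add {f f' : ℕ → ℕ} {j : ℕ} (h : PB f j) (h' : PB f' j) : PB (fun n => f n + f' n) j := by
  obtain ⟨K, hK⟩ := h
  obtain ⟨K', hK'⟩ := h'
  exact ⟨K + K', fun n hn => by
    rw [add_mul]
    exact Nat.add_le_add (hK n hn) (hK' n hn)⟩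

lemma PB.mul {f f' : ℕ → ℕ} {j j' : ℕ} (h : PB f j) (h' : PB f' j') :
    PB (fun n => f n * f' n) (j + j') := by
  obtain ⟨K, hK⟩ := h
  obtain ⟨K', hK'⟩ := h'
  exact ⟨K * K', fun n hn => by
    calc f n * f' n ≤ (K * n ^ j) * (K' * n ^ j') := Nat.mul_le_mul (hK n hn) (hK' n hn)
      _ = K * K' * n ^ (j + j') := by ring⟩

lemma PB.pow {f : ℕ → ℕ} {j : ℕ} (h : PB f j) (e : ℕ) : PB (fun n => f n ^ e) (j * e) := by
  obtain ⟨K, hK⟩ := h
  exact ⟨K ^ e, fun n hn => by
    calc f n ^ e ≤ (K * n ^ j) ^ e := Nat.pow_le_pow_left (hK n hn) e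
      _ = K ^ e * n ^ (j * e) := by rw [mul_pow, pow_mul]⟩

lemma PB.of_le {f f' : ℕ → ℕ} {j : ℕ} (h : PB f' j) (hle : ∀ n, 1 ≤ n → f n ≤ f' n) : PB f j := by
  obtain ⟨K, hK⟩ := h
  exact ⟨K, fun n hn => (hle n hn).trans (hK n hn)⟩

lemma two_pow_clog_le {A : ℕ} (hA : 1 ≤ A) : 2 ^ Nat.clog 2 A ≤ 2 * A := by
  by_cases h : A = 1
  · subst h
    simp
  · have h1 : 1 < A := by omega
    have h2 := Nat.pow_pred_clog_lt_self (b := 2) (by omega) h1
    have h3 : 0 < Nat.clog 2 A := Nat.clog_pos (by omega) (by omega)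
    have h4 : 2 ^ Nat.clog 2 A = 2 * 2 ^ (Nat.clog 2 A).pred := by
      rw [← pow_succ']
      congr 1
      have := Nat.succ_pred_eq_of_pos h3
      omega
    omega

section TM

variable (Q Γ : Type) [Fintype Q] [DecidableEq Q] [Fintype Γ] [DecidableEq Γ] (L d : ℕ)

/-- The size of the letter alphabet. -/
noncomputable def aF (n : ℕ) : ℕ := Fintype.card (LamC (DTM.TSg Q Γ) n)

lemma aF_eq (n : ℕ) : aF Q Γ n = n + Fintype.card (Hd (DTM.TSg Q Γ)) := by
  unfold aF
  simp [Fintype.card_sum]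

lemma aF_pb : PB (aF Q Γ) 1 := by
  refine PB.of_le ((PB.id).add (PB.const (Fintype.card (Hd (DTM.TSg Q Γ))) 1)) ?_
  intro n _
  rw [aF_eq]

lemma one_le_aF {n : ℕ} (hn : 1 ≤ n) : 1 ≤ aF Q Γ n := by
  rw [aF_eq]
  omega

lemma pow_bL_le {n : ℕ} (hn : 1 ≤ n) : 2 ^ tmBL Q Γ n ≤ 2 * aF Q Γ n :=
  two_pow_clog_le (one_le_aF Q Γ hn)

lemma bL_pb : PB (tmBL Q Γ) 1 := by
  refine PB.of_le ((PB.const 2 0).mul (aF_pb Q Γ)) ?_
  intro n hn
  exact (Nat.lt_two_pow_self).le.trans (pow_bL_le Q Γ hn)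

/-- The number of clauses. -/
noncomputable def clF (n : ℕ) : ℕ := Fintype.card (SCl (tmN L) (tmBL Q Γ n) (tmBS Q Γ L))

lemma clF_pb : PB (clF Q Γ L) 1 := by
  have hb := bL_pb Q Γ
  have e : clF Q Γ L = fun n => (3 * 4 * 4 * (tmN L + 1) * 2 + 3 * 4 * (tmN L + 1) * 2) * tmBL Q Γ n +
      (3 * 4 * (tmN L + 1) + 4 * (tmN L + 1) + 4 * tmN L * tmBS Q Γ L * 2 + 4 * (tmN L + 1) +
        4 * (tmN L + 1) + 3 * 4) := by
    funext n
    unfold clF
    rw [card_SCl]
    ring
  rw [e]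
  exact (PB.mono (PB.mul (PB.const _ 0) hb) (by omega)).add (PB.const _ 1)

/-- The number of base vertices. -/
noncomputable def rvF (n : ℕ) : ℕ :=
  Fintype.card (RV (SCo (tmN L) (d - (32 * L + 34))) (SCl (tmN L) (tmBL Q Γ n) (tmBS Q Γ L)) (d + 2))

lemma rvF_pb : PB (rvF Q Γ L d) 1 := by
  have hb := clF_pb Q Γ L
  have e : rvF Q Γ L d = fun n => 3 * 2 * 2 * ((d + 2) *
      Fintype.card (Gr × SCo (tmN L) (d - (32 * L + 34)))) + 3 * 2 * 2 * 4 * clF Q Γ L n := by
    funext n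
    unfold rvF clF
    simp only [Fintype.card_prod, Fintype.card_fin, Fintype.card_bool]
    ring
  rw [e]
  exact (PB.const _ 1).add (PB.mono (PB.mul (PB.const _ 0) hb) (by omega))

/-- The number of letters. -/
noncomputable def ltF (n : ℕ) : ℕ :=
  Fintype.card (SLet (LamC (DTM.TSg Q Γ) n) (Tag (DTM.TSg Q Γ) L L) (tmN L) (d - (32 * L + 34)))

lemma ltF_pb : PB (ltF Q Γ L d) 3 := by
  have hb := aF_pb Q Γ
  have e : ltF Q Γ L d = fun n => 3 * 4 * (tmN L + 1) * 2 * aF Q Γ n +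
      (4 * (tmN L + 1) * Fintype.card (Tag (DTM.TSg Q Γ) L L) ^ 2 * 3) * aF Q Γ n ^ 3 +
      (d - (32 * L + 34)) := by
    funext n
    unfold ltF aF
    rw [card_SLet]
    ring
  rw [e]
  refine ((PB.mono (PB.mul (PB.const _ 0) hb) (by omega)).add ?_).add (PB.const _ 3)
  exact PB.mono (PB.mul (PB.const _ 0) (hb.pow 3)) (by omega)

/-- The exponent of the number of nodes of a letter. -/
noncomputable def edF (n : ℕ) : ℕ :=
  4 * (18 * tmBL Q Γ n + 4 * tmBS Q Γ L + 4) + 6 * (d + 2) * (d + 2)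

lemma pow_edF_pb : PB (fun n => 2 ^ edF Q Γ L d n) 72 := by
  have hb := aF_pb Q Γ
  have h1 : PB (fun n => 2 ^ tmBL Q Γ n) 1 := by
    refine PB.of_le ((PB.const 2 0).mul hb) ?_
    intro n hn
    exact pow_bL_le Q Γ hn
  have e : (fun n => 2 ^ edF Q Γ L d n) = fun n => (2 ^ tmBL Q Γ n) ^ 72 *
      2 ^ (4 * (4 * tmBS Q Γ L + 4) + 6 * (d + 2) * (d + 2)) := by
    funext n
    unfold edF
    rw [← pow_mul, ← pow_add]
    congr 1
    ring
  rw [e]
  exact PB.mul (h1.pow 72) (PB.const _ 0)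

/-- The bound for the number of nodes. -/
noncomputable def ndF (n : ℕ) : ℕ := rvF Q Γ L d n * 2 ^ (2 * (d + 2) + 9) + ltF Q Γ L d n * 2 ^ edF Q Γ L d n

lemma ndF_pb : PB (ndF Q Γ L d) 75 := by
  refine PB.add ?_ (ltF_pb Q Γ L d |>.mul (pow_edF_pb Q Γ L d))
  exact PB.mono (PB.mul (rvF_pb Q Γ L d) (PB.const _ 0)) (by omega)

/-- The bound for the number of vertices. -/
noncomputable def vtF (n : ℕ) : ℕ :=
  ndF Q Γ L d n * ((rvF Q Γ L d n + ltF Q Γ L d n) * (ndF Q Γ L d n + 2) + 1)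

lemma vtF_pb : PB (vtF Q Γ L d) 153 := by
  have h1 := ndF_pb Q Γ L d
  have h2 : PB (fun n => rvF Q Γ L d n + ltF Q Γ L d n) 3 :=
    (PB.mono (rvF_pb Q Γ L d) (by omega)).add (ltF_pb Q Γ L d)
  have h3 : PB (fun n => ndF Q Γ L d n + 2) 75 := h1.add (PB.const _ 75)
  have h4 := PB.mul h2 h3
  have h5 : PB (fun n => (rvF Q Γ L d n + ltF Q Γ L d n) * (ndF Q Γ L d n + 2) + 1) 78 :=
    h4.add (PB.const _ _)
  exact h1.mul h5

variable {Q Γ L d}

lemma card_node_le (M : DTM Q Γ) {n : ℕ} (x : Fin n → Γ) :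
    Fintype.card (Node (tmBase Q Γ n L d) (tmFr M x L d)) ≤ ndF Q Γ L d n := by
  rw [card_Node, Fintype.sum_sum_type]
  apply Nat.add_le_add
  · calc _ ≤ ∑ _v : tmRV Q Γ n L d, 2 ^ (2 * (d + 2) + 9) := Finset.sum_le_sum fun v _ =>
            Nat.pow_le_pow_right (by omega) (card_edges_base _ _ v)
      _ = _ := by
          rw [Finset.sum_const, card_univ, smul_eq_mul]
          rfl
  · calc _ ≤ ∑ _l : tmLt Q Γ n L d, 2 ^ edF Q Γ L d n := Finset.sum_le_sum fun l _ =>
            Nat.pow_le_pow_right (by omega)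
              (card_frL_le _ _ _ l (fun S hS => card_cov_le _ _ _ _ l S hS))
      _ = _ := by
          rw [Finset.sum_const, card_univ, smul_eq_mul]
          rfl

lemma card_vt_le (M : DTM Q Γ) {n : ℕ} (x : Fin n → Γ) (t) :
    Fintype.card (tmV M x L d t) ≤ vtF Q Γ L d n := by
  refine (card_VT_le t).trans (Nat.mul_le_mul (card_node_le M x) (Nat.add_le_add_right ?_ 1))
  unfold pendMax
  refine Nat.mul_le_mul ?_ (Nat.add_le_add_right (card_node_le M x) 2)
  rw [Fintype.card_sum]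
  exact le_rfl

end TM

end Vale.Agent.Lib.P310U
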